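import Crest.Agent.R171.Defs

/-!
# R171-Bridge: from cocycles to Mathlib's `groupHomology … 3`

Plan.  Let `z : (Fin 3 → G) →₀ ℤ` be
`n • (single ![g,h,k] 1 - single ![h,g,k] 1 - single ![g,k,h] 1 - single ![k,h,g] 1
      + single ![h,k,g] 1 + single ![k,g,h] 1)`,
an element of `(groupHomology.inhomogeneousChains (Rep.trivial ℤ G ℤ)).X 3`.
Mathlib's differential (`groupHomology.inhomogeneousChains.d`, `d_single`) for the trivial
representation is `[g₁|…|g₄] ↦ [g₂|g₃|g₄] - [g₁g₂|g₃|g₄] + [g₁|g₂g₃|g₄] - [g₁|g₂|g₃g₄] + [g₁|g₂|g₃]`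
(`Fin.contractNth`; use `Fin.sum_univ_succ`/`Fin.sum_univ_four` and `funext; fin_cases`).
* `z` is a cycle because `g,h,k` commute pairwise; let `ξ` be its class (`groupHomology.π`, `cyclesMk`).
* `map φ f 3 ξ` is the class of `chainsMap φ f z = ` the same chain for `φ g, φ h, φ k`
  (`groupHomology.π_map`, `cyclesMap`, `chainsMap_f_single`, `hf`).  Take
  `M = ((Fin 3 → H) →₀ ℤ) ⧸ range d₄₃` and `c a b e = mk (single ![a,b,e] 1)`; it is an `IsCoc3`, so
  `hH` says the image chain is a boundary, so `map φ f 3 ξ = 0`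
  (class of a cycle is zero iff it is in the range of `d 4 3`:
  `HomologicalComplex.homologyπ`/`ShortComplex.moduleCat…`/`exact_iff`, e.g. via
  `HomologicalComplex.toCycles_comp_homologyπ` and exactness of `toCycles ≫ homologyπ` as cokernel).
* If the map were injective, `ξ = 0`, so `z = d u`; the linear functional
  `L = Finsupp.lsum/linearCombination (fun v => c (v 0) (v 1) (v 2))` kills `range d₄₃` (by `IsCoc3`)
  and `L z = n • alt3 c g h k ≠ 0`: contradiction.
-/

set_option autoImplicit false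

namespace Crest.Agent.R171

namespace Bridge
open groupHomology CategoryTheory Finsupp

/-- the torus chain -/
noncomputable def tor {G : Type} (g h k : G) : (Fin 3 → G) →₀ ℤ :=
  single ![g, h, k] 1 - single ![h, g, k] 1 - single ![g, k, h] 1 - single ![k, h, g] 1
    + single ![h, k, g] 1 + single ![k, g, h] 1

theorem d3_single {G : Type} [Group G] (v : Fin 4 → G) (a : ℤ) :
    inhomogeneousChains.d (Rep.trivial ℤ G ℤ) 3 (single v a) =
      single ![v 1, v 2, v 3] a - single ![v 0 * v 1, v 2, v 3] a + single ![v 0, v 1 * v 2, v 3] a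
        - single ![v 0, v 1, v 2 * v 3] a + single ![v 0, v 1, v 2] a := by
  rw [inhomogeneousChains.d_single, Fin.sum_univ_four]
  have e0 : (fun i : Fin 3 => v i.succ) = ![v 1, v 2, v 3] := by
    funext i; fin_cases i <;> rfl
  have e1 : Fin.contractNth (0 : Fin 4) (· * ·) v = ![v 0 * v 1, v 2, v 3] := by
    funext i; fin_cases i <;> rfl
  have e2 : Fin.contractNth (1 : Fin 4) (· * ·) v = ![v 0, v 1 * v 2, v 3] := by
    funext i; fin_cases i <;> rfl
  have e3 : Fin.contractNth (2 : Fin 4) (· * ·) v = ![v 0, v 1, v 2 * v 3] := by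
    funext i; fin_cases i <;> rfl
  have e4 : Fin.contractNth (3 : Fin 4) (· * ·) v = ![v 0, v 1, v 2] := by
    funext i; fin_cases i <;> rfl
  rw [e0, e1, e2, e3, e4]
  have p0 : (-1 : ℤ) ^ (((0 : Fin 4) : ℕ) + 1) = -1 := by decide
  have p1 : (-1 : ℤ) ^ (((1 : Fin 4) : ℕ) + 1) = 1 := by decide
  have p2 : (-1 : ℤ) ^ (((2 : Fin 4) : ℕ) + 1) = -1 := by decide
  have p3 : (-1 : ℤ) ^ (((3 : Fin 4) : ℕ) + 1) = 1 := by decide
  rw [p0, p1, p2, p3]
  simp only [neg_smul, one_smul]
  change single _ a + _ = _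
  abel

theorem d2_single {G : Type} [Group G] (g h k : G) (a : ℤ) :
    inhomogeneousChains.d (Rep.trivial ℤ G ℤ) 2 (single ![g, h, k] a) =
      single ![h, k] a - single ![g * h, k] a + single ![g, h * k] a - single ![g, h] a := by
  rw [inhomogeneousChains.d_single, Fin.sum_univ_three]
  have e0 : (fun i : Fin 2 => ![g, h, k] i.succ) = ![h, k] := by
    funext i; fin_cases i <;> rfl
  have e1 : Fin.contractNth (0 : Fin 3) (· * ·) ![g, h, k] = ![g * h, k] := by
    funext i; fin_cases i <;> rfl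
  have e2 : Fin.contractNth (1 : Fin 3) (· * ·) ![g, h, k] = ![g, h * k] := by
    funext i; fin_cases i <;> rfl
  have e3 : Fin.contractNth (2 : Fin 3) (· * ·) ![g, h, k] = ![g, h] := by
    funext i; fin_cases i <;> rfl
  rw [e0, e1, e2, e3]
  have p0 : (-1 : ℤ) ^ (((0 : Fin 3) : ℕ) + 1) = -1 := by decide
  have p1 : (-1 : ℤ) ^ (((1 : Fin 3) : ℕ) + 1) = 1 := by decide
  have p2 : (-1 : ℤ) ^ (((2 : Fin 3) : ℕ) + 1) = -1 := by decide
  rw [p0, p1, p2]
  simp only [neg_smul, one_smul]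
  change single _ a + _ = _
  abel

theorem d_tor {G : Type} [Group G] {g h k : G} (hgh : Commute g h) (hgk : Commute g k)
    (hhk : Commute h k) : inhomogeneousChains.d (Rep.trivial ℤ G ℤ) 2 (tor g h k) = 0 := by
  let ψ : ((Fin 3 → G) →₀ ℤ) →ₗ[ℤ] ((Fin 2 → G) →₀ ℤ) :=
    (inhomogeneousChains.d (Rep.trivial ℤ G ℤ) 2).hom
  have hs : ∀ g h k : G, ψ (single ![g, h, k] 1) =
      single ![h, k] 1 - single ![g * h, k] 1 + single ![g, h * k] 1 - single ![g, h] 1 :=
    fun g h k => d2_single g h k 1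
  change ψ _ = 0
  simp only [tor, map_add, map_sub, hs, hgh.eq, hgk.eq, hhk.eq]
  abel

/-- the linear functional of a cochain -/
noncomputable def L {G M : Type} [AddCommGroup M] (c : G → G → G → M) :
    ((Fin 3 → G) →₀ ℤ) →ₗ[ℤ] M :=
  linearCombination ℤ (fun v => c (v 0) (v 1) (v 2))

theorem L_single {G M : Type} [AddCommGroup M] (c : G → G → G → M) (g h k : G) (a : ℤ) :
    L c (single ![g, h, k] a) = a • c g h k := by
  simp [L]

theorem L_tor {G M : Type} [AddCommGroup M] (c : G → G → G → M) (g h k : G) :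
    L c (tor g h k) = alt3 c g h k := by
  simp only [tor, map_add, map_sub, L_single, one_smul, alt3]

theorem L_d {G M : Type} [Group G] [AddCommGroup M] {c : G → G → G → M} (hc : IsCoc3 c)
    (u : (Fin 4 → G) →₀ ℤ) : L c (inhomogeneousChains.d (Rep.trivial ℤ G ℤ) 3 u) = 0 := by
  induction u using Finsupp.induction_linear with
  | zero =>
    have : inhomogeneousChains.d (Rep.trivial ℤ G ℤ) 3 (0 : (Fin 4 → G) →₀ ℤ) = 0 := map_zero _
    rw [this, map_zero]
  | add x y hx hy =>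
    have : inhomogeneousChains.d (Rep.trivial ℤ G ℤ) 3 (x + y) =
      inhomogeneousChains.d (Rep.trivial ℤ G ℤ) 3 x + inhomogeneousChains.d (Rep.trivial ℤ G ℤ) 3 y :=
      map_add _ x y
    rw [this, map_add, hx, hy, add_zero]
  | single v a =>
    rw [d3_single]
    simp only [map_add, map_sub, L_single, ← smul_sub, ← smul_add]
    rw [hc, smul_zero]

end Bridge

open Bridge groupHomology CategoryTheory in
theorem bridge {G H : Type} [Group G] [Group H] (φ : G →* H)
    (f : Rep.trivial ℤ G ℤ ⟶ Rep.res φ (Rep.trivial ℤ H ℤ)) (hf : ∀ n : ℤ, f.hom n = n)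
    (g h k : G) (hgh : Commute g h) (hgk : Commute g k) (hhk : Commute h k) (n : ℤ)
    (M : Type) [AddCommGroup M] (c : G → G → G → M) (hc : IsCoc3 c) (hG : n • alt3 c g h k ≠ 0)
    (hH : ∀ (N : Type) [AddCommGroup N] (e : H → H → H → N), IsCoc3 e →
      n • alt3 e (φ g) (φ h) (φ k) = 0) :
    ¬ Function.Injective (groupHomology.map φ f 3).hom := by
  intro hinj
  have hz : (inhomogeneousChains (Rep.trivial ℤ G ℤ)).d 3 2 (n • tor g h k) = 0 := by
    rw [inhomogeneousChains.d_def]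
    have : inhomogeneousChains.d (Rep.trivial ℤ G ℤ) 2 (n • tor g h k) =
        n • inhomogeneousChains.d (Rep.trivial ℤ G ℤ) 2 (tor g h k) := map_zsmul _ _ _
    rw [this, d_tor hgh hgk hhk, smul_zero]
  let z : cycles (Rep.trivial ℤ G ℤ) 3 := cyclesMk 3 2 (by simp) (n • tor g h k) hz
  have hiz : iCycles (Rep.trivial ℤ G ℤ) 3 z = n • tor g h k := iCycles_mk (by simp) _ hz
  -- the image is a boundary
  let dH : ((Fin 4 → H) →₀ ℤ) →ₗ[ℤ] ((Fin 3 → H) →₀ ℤ) :=
    (inhomogeneousChains.d (Rep.trivial ℤ H ℤ) 3).hom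
  have h1 := hH (((Fin 3 → H) →₀ ℤ) ⧸ LinearMap.range dH)
    (fun a b e => (LinearMap.range dH).mkQ (Finsupp.single ![a, b, e] 1)) (by
      intro a b e l
      have : (LinearMap.range dH).mkQ (dH (Finsupp.single ![a, b, e, l] 1)) = 0 :=
        (Submodule.Quotient.mk_eq_zero _).2 ⟨_, rfl⟩
      have h2 := d3_single ![a, b, e, l] 1
      change dH _ = _ at h2
      rw [h2] at this
      simp only [map_add, map_sub] at this
      exact this)
  have h2 : (LinearMap.range dH).mkQ (n • tor (φ g) (φ h) (φ k)) = 0 := by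
    rw [← h1]; simp only [tor, map_add, map_sub, map_zsmul, alt3]
  obtain ⟨u, hu⟩ := (Submodule.Quotient.mk_eq_zero _).1 h2
  have hsingle : ∀ a b e : G, (chainsMap φ f).f 3 (Finsupp.single ![a, b, e] (1 : ℤ)) =
      Finsupp.single ![φ a, φ b, φ e] (1 : ℤ) := by
    intro a b e
    rw [chainsMap_f_single, hf]
    congr 1
    funext i; fin_cases i <;> rfl
  have h3 : (chainsMap φ f).f 3 (n • tor g h k) = n • tor (φ g) (φ h) (φ k) := by
    let ψ : ((Fin 3 → G) →₀ ℤ) →ₗ[ℤ] ((Fin 3 → H) →₀ ℤ) := ((chainsMap φ f).f 3).hom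
    change ψ _ = _
    have hs : ∀ a b e : G, ψ (Finsupp.single ![a, b, e] (1 : ℤ)) =
      Finsupp.single ![φ a, φ b, φ e] (1 : ℤ) := hsingle
    simp only [tor, map_add, map_sub, map_zsmul, hs]
  have h4 : cyclesMap φ f 3 z = toCycles (Rep.trivial ℤ H ℤ) 4 3 u := by
    apply (ModuleCat.mono_iff_injective (iCycles (Rep.trivial ℤ H ℤ) 3)).1 inferInstance
    have e1 := congrArg (fun t => t.hom z) (HomologicalComplex.cyclesMap_i (chainsMap φ f) 3)
    have e2 := congrArg (fun t => t.hom u)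
      ((inhomogeneousChains (Rep.trivial ℤ H ℤ)).toCycles_i 4 3)
    simp only [ModuleCat.hom_comp, LinearMap.comp_apply] at e1 e2
    refine e1.trans (Eq.trans ?_ e2.symm)
    have e3 : ((inhomogeneousChains (Rep.trivial ℤ H ℤ)).d 4 3).hom u = dH u := by
      rw [inhomogeneousChains.d_def]
    refine Eq.trans ?_ (hu.symm.trans e3.symm)
    rw [← h3, ← hiz]
  have h5 : (groupHomology.map φ f 3).hom (π _ 3 z) = 0 := by
    have e1 := congrArg (fun t => t.hom z) (π_map φ f 3)
    have e2 := congrArg (fun t => t.hom u)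
      ((inhomogeneousChains (Rep.trivial ℤ H ℤ)).toCycles_comp_homologyπ 4 3)
    simp only [ModuleCat.hom_comp, LinearMap.comp_apply] at e1 e2
    refine e1.trans ?_
    have h4' : (cyclesMap φ f 3).hom z = (toCycles (Rep.trivial ℤ H ℤ) 4 3).hom u := h4
    rw [h4']
    exact e2
  have h6 : π _ 3 z = 0 := hinj (h5.trans (map_zero _).symm)
  obtain ⟨ℓ, hℓ⟩ := Limits.CokernelCofork.IsColimit.desc'
    ((inhomogeneousChains (Rep.trivial ℤ G ℤ)).homologyIsCokernel 4 3 (by simp))
    (W := ModuleCat.of ℤ M) (iCycles (Rep.trivial ℤ G ℤ) 3 ≫ ModuleCat.ofHom (L c)) (by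
      rw [← Category.assoc, HomologicalComplex.toCycles_i, inhomogeneousChains.d_def]
      exact ModuleCat.hom_ext (LinearMap.ext fun u => L_d hc u))
  have hℓ' : (inhomogeneousChains (Rep.trivial ℤ G ℤ)).homologyπ 3 ≫ ℓ =
    iCycles (Rep.trivial ℤ G ℤ) 3 ≫ ModuleCat.ofHom (L c) := hℓ
  have e1 := congrArg (fun t => t.hom z) hℓ'
  simp only [ModuleCat.hom_comp, LinearMap.comp_apply] at e1
  have h6' : ((inhomogeneousChains (Rep.trivial ℤ G ℤ)).homologyπ 3).hom z = 0 := h6
  rw [h6', map_zero] at e1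
  apply hG
  rw [← L_tor, ← map_zsmul, ← hiz]
  exact e1.symm

end Crest.Agent.R171
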