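import Crest.Agent.R171.Lift

/-! # R171-Coc: 2-cocycles, slant products and central extensions -/

set_option autoImplicit false

namespace Crest.Agent.R171

open Crest.AlgebraR.Steinberg

section
variable {G M : Type*} [Group G] [AddCommGroup M]

def Coc2On (P : Subgroup G) (f : G → G → M) : Prop :=
  ∀ g ∈ P, ∀ h ∈ P, ∀ k ∈ P, f h k - f (g * h) k + f g (h * k) - f g h = 0

def sl (c : G → G → G → M) (s g h : G) : M := c s g h - c g s h + c g h s

theorem coc2On_sl {c : G → G → G → M} (hc : IsCoc3 c) (s : G) :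
    Coc2On (Subgroup.centralizer {s}) (sl c s) := by
  intro g hg h hh k hk
  rw [Subgroup.mem_centralizer_singleton_iff] at hg hh hk
  have h1 := hc s g h k
  have h2 := hc g s h k
  have h3 := hc g h s k
  have h4 := hc g h k s
  rw [hg] at h2; rw [hh] at h3; rw [hk] at h4
  simp only [sl]
  linear_combination (norm := abel) -h1 + h2 - h3 + h4

theorem alt3_eq (c : G → G → G → M) (g h k : G) : alt3 c g h k = sl c k g h - sl c k h g := by
  simp only [alt3, sl]; abel

theorem alt3_swap12 (c : G → G → G → M) (g h k : G) : alt3 c h g k = -alt3 c g h k := by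
  simp only [alt3]; abel

theorem alt3_swap23 (c : G → G → G → M) (g h k : G) : alt3 c g k h = -alt3 c g h k := by
  simp only [alt3]; abel

theorem alt3_cyc (c : G → G → G → M) (g h k : G) : alt3 c h k g = alt3 c g h k := by
  simp only [alt3]; abel

theorem mem_cent {g s : G} (h : Commute g s) : g ∈ Subgroup.centralizer {s} :=
  Subgroup.mem_centralizer_singleton_iff.2 h.eq

theorem alt3_mul {c : G → G → G → M} (hc : IsCoc3 c) {g g' h k : G} (h1 : Commute g h)
    (h2 : Commute g' h) (h3 : Commute g k) (h4 : Commute g' k) (h5 : Commute h k) :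
    alt3 c (g * g') h k = alt3 c g h k + alt3 c g' h k := by
  have H := coc2On_sl hc k
  have e1 := H g (mem_cent h3) g' (mem_cent h4) h (mem_cent h5)
  have e2 := H g (mem_cent h3) h (mem_cent h5) g' (mem_cent h4)
  have e3 := H h (mem_cent h5) g (mem_cent h3) g' (mem_cent h4)
  rw [h2.eq] at e1; rw [h1.eq] at e2
  simp only [alt3_eq]
  linear_combination (norm := abel) -e1 + e2 - e3

theorem alt3_one {c : G → G → G → M} (hc : IsCoc3 c) {h k : G} (h5 : Commute h k) :
    alt3 c 1 h k = 0 := by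
  have := alt3_mul hc (Commute.one_left h) (Commute.one_left h) (Commute.one_left k)
    (Commute.one_left k) h5
  simpa using this

theorem alt3_inv {c : G → G → G → M} (hc : IsCoc3 c) {g h k : G} (h1 : Commute g h)
    (h3 : Commute g k) (h5 : Commute h k) : alt3 c g⁻¹ h k = -alt3 c g h k := by
  have := alt3_mul hc h1.inv_left h1 h3.inv_left h3 h5
  rw [inv_mul_cancel, alt3_one hc h5] at this
  exact eq_neg_of_add_eq_zero_left this.symm

theorem alt3_conj {c : G → G → G → M} (hc : IsCoc3 c) {s g h k : G} (h1 : Commute g h)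
    (h2 : Commute s k) (h3 : Commute g k) (h5 : Commute h k) :
    alt3 c (s * g * s⁻¹) (s * h * s⁻¹) k = alt3 c g h k := by
  have H := coc2On_sl hc k
  have key : ∀ g h : G, Commute g k → Commute h k →
      sl c k (s * g * s⁻¹) (s * h * s⁻¹) = sl c k g h - (sl c k s h - sl c k (s * h * s⁻¹) s)
        - (sl c k s g - sl c k (s * g * s⁻¹) s)
        + (sl c k s (g * h) - sl c k (s * (g * h) * s⁻¹) s) := by
    intro g h h3 h5
    have hg' : Commute (s * g * s⁻¹) k := (h2.mul_left h3).mul_left h2.inv_left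
    have hh' : Commute (s * h * s⁻¹) k := (h2.mul_left h5).mul_left h2.inv_left
    have e1 := H _ (mem_cent hg') _ (mem_cent hh') s (mem_cent h2)
    have e2 := H _ (mem_cent hg') s (mem_cent h2) h (mem_cent h5)
    have e3 := H s (mem_cent h2) g (mem_cent h3) h (mem_cent h5)
    rw [show s * g * s⁻¹ * (s * h * s⁻¹) = s * (g * h) * s⁻¹ by group,
      inv_mul_cancel_right] at e1
    rw [inv_mul_cancel_right] at e2
    linear_combination (norm := abel) -e1 + e2 - e3
  simp only [alt3_eq]
  rw [key g h h3 h5, key h g h5 h3, h1.eq]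
  abel

/-- the central extension of `P` defined by a 2-cocycle -/
@[ext] structure Ext (P : Subgroup G) (f : G → G → M) (hf : Coc2On P f) where
  g : G
  hg : g ∈ P
  m : M

theorem Coc2On.one_left {P : Subgroup G} {f : G → G → M} (hf : Coc2On P f) {g : G} (hg : g ∈ P) :
    f 1 g = f 1 1 := by
  have := hf 1 P.one_mem 1 P.one_mem g hg
  simp only [one_mul] at this
  linear_combination (norm := abel) this

theorem Coc2On.one_right {P : Subgroup G} {f : G → G → M} (hf : Coc2On P f) {g : G} (hg : g ∈ P) :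
    f g 1 = f 1 1 := by
  have := hf g hg 1 P.one_mem 1 P.one_mem
  simp only [mul_one] at this
  linear_combination (norm := abel) -this

variable {P : Subgroup G} {f : G → G → M} {hf : Coc2On P f}

instance : Mul (Ext P f hf) := ⟨fun a b => ⟨a.g * b.g, P.mul_mem a.hg b.hg, a.m + b.m + f a.g b.g⟩⟩
instance : One (Ext P f hf) := ⟨⟨1, P.one_mem, -f 1 1⟩⟩
instance : Inv (Ext P f hf) := ⟨fun a => ⟨a.g⁻¹, P.inv_mem a.hg, -a.m - f a.g⁻¹ a.g - f 1 1⟩⟩

theorem Ext.mul_g (a b : Ext P f hf) : (a * b).g = a.g * b.g := rfl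
theorem Ext.mul_m (a b : Ext P f hf) : (a * b).m = a.m + b.m + f a.g b.g := rfl

instance : Group (Ext P f hf) := Group.ofLeftAxioms
  (fun a b c => by
    ext
    · exact mul_assoc _ _ _
    · simp only [Ext.mul_g, Ext.mul_m]
      linear_combination (norm := abel) -hf _ a.hg _ b.hg _ c.hg)
  (fun a => by
    ext
    · exact one_mul _
    · change -f 1 1 + a.m + f 1 a.g = a.m
      rw [hf.one_left a.hg]; abel)
  (fun a => by
    ext
    · exact inv_mul_cancel _
    · change -a.m - f a.g⁻¹ a.g - f 1 1 + a.m + f a.g⁻¹ a.g = -f 1 1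
      abel)

def Ext.p : Ext P f hf →* G := MonoidHom.mk' (fun a => a.g) (fun _ _ => rfl)

theorem Ext.central (y : Ext P f hf) (hy : Ext.p y = 1) (z : Ext P f hf) : Commute y z := by
  have hy' : y.g = 1 := hy
  show y * z = z * y
  ext
  · simp [Ext.mul_g, hy']
  · simp only [Ext.mul_m, hy', hf.one_left z.hg, hf.one_right z.hg]; abel

theorem Ext.symm_of_commute {y z : Ext P f hf} (h : Commute y z) :
    f (Ext.p y) (Ext.p z) = f (Ext.p z) (Ext.p y) := by
  have := congrArg Ext.m h.eq
  simp only [Ext.mul_m] at this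
  change f y.g z.g = f z.g y.g
  linear_combination (norm := abel) this

variable {I R : Type*} [CommRing R]

theorem map_h {Y : Type*} [Group Y] (p : Y →* G) (T : StSys I R Y) (S : StSys I R G)
    (h : ∀ i j, i ≠ j → ∀ a, p (T.x i j a) = S.x i j a) {i j : I} (hij : i ≠ j) (u : Rˣ) :
    p (T.h i j u) = S.h i j u := by
  simp only [StSys.h, StSys.w, map_mul, h i j hij, h j i hij.symm]

/-- Steinberg relation -/
theorem alt3_steinberg {c : G → G → G → M} (hc : IsCoc3 c) (hI : Spare I) (S : StSys I R G) (k : G)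
    (hk : ∀ i j, i ≠ j → ∀ a, Commute (S.x i j a) k) {i j : I} (hij : i ≠ j) (a b : Rˣ)
    (hab : (a : R) + b = 1) : alt3 c (S.h i j a) (S.h i j b) k = 0 := by
  classical
  obtain ⟨T, hT⟩ := exists_lift (Ext.p (hf := coc2On_sl hc k)) Ext.central hI S
    (fun i j hij a => ⟨⟨S.x i j a, mem_cent (hk i j hij a), 0⟩, rfl⟩)
  have := Ext.symm_of_commute (T.commute_h_h hI hij a b hab)
  rw [map_h _ T S hT hij, map_h _ T S hT hij] at this
  rw [alt3_eq, this, sub_self]

/-- perfectness -/
theorem alt3_x {c : G → G → G → M} (hc : IsCoc3 c) (hI : Spare I) (S : StSys I R G) {h k : G}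
    (hh : ∀ i j, i ≠ j → ∀ a, Commute (S.x i j a) h)
    (hk : ∀ i j, i ≠ j → ∀ a, Commute (S.x i j a) k) (hhk : Commute h k) {i j : I} (hij : i ≠ j)
    (a : R) : alt3 c (S.x i j a) h k = 0 := by
  obtain ⟨n, hni, hnj, -, -⟩ := hI i j i j
  have e := S.mul i n j hni.symm hnj hij a 1
  rw [mul_one] at e
  have a1 := hh i n hni.symm a
  have a2 := hh n j hnj 1
  have b1 := hk i n hni.symm a
  have b2 := hk n j hnj 1
  rw [← e, alt3_mul hc ((a1.mul_left a2).mul_left a1.inv_left) a2.inv_left
    ((b1.mul_left b2).mul_left b1.inv_left) b2.inv_left hhk,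
    alt3_mul hc (a1.mul_left a2) a1.inv_left (b1.mul_left b2) b1.inv_left hhk,
    alt3_mul hc a1 a2 b1 b2 hhk, alt3_inv hc a1 b1 hhk, alt3_inv hc a2 b2 hhk]
  abel

theorem commute_h_of (S : StSys I R G) {h : G}
    (hh : ∀ i j, i ≠ j → ∀ a, Commute (S.x i j a) h) {i j : I} (hij : i ≠ j) (u : Rˣ) :
    Commute (S.h i j u) h := by
  have hw : ∀ u, Commute (S.w i j u) h := fun u =>
    ((hh i j hij _).mul_left (hh j i hij.symm _)).mul_left (hh i j hij _)
  exact (hw _).mul_left (hw _)

theorem alt3_h {c : G → G → G → M} (hc : IsCoc3 c) (hI : Spare I) (S : StSys I R G) {h k : G}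
    (hh : ∀ i j, i ≠ j → ∀ a, Commute (S.x i j a) h)
    (hk : ∀ i j, i ≠ j → ∀ a, Commute (S.x i j a) k) (hhk : Commute h k) {i j : I} (hij : i ≠ j)
    (u : Rˣ) : alt3 c (S.h i j u) h k = 0 := by
  have hw : ∀ (z : G), (∀ i j, i ≠ j → ∀ a, Commute (S.x i j a) z) → ∀ u, Commute (S.w i j u) z :=
    fun z hz u => ((hz i j hij _).mul_left (hz j i hij.symm _)).mul_left (hz i j hij _)
  have h0 : ∀ u, alt3 c (S.w i j u) h k = 0 := by
    intro u
    rw [StSys.w, alt3_mul hc ((hh i j hij _).mul_left (hh j i hij.symm _)) (hh i j hij _)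
      ((hk i j hij _).mul_left (hk j i hij.symm _)) (hk i j hij _) hhk,
      alt3_mul hc (hh i j hij _) (hh j i hij.symm _) (hk i j hij _) (hk j i hij.symm _) hhk,
      alt3_x hc hI S hh hk hhk hij, alt3_x hc hI S hh hk hhk hij.symm]
    simp
  rw [StSys.h, alt3_mul hc (hw h hh _) (hw h hh _) (hw k hk _) (hw k hk _) hhk, h0, h0, add_zero]

end

section
variable {M R : Type*} [AddCommGroup M] [CommRing R]

/-- `H₂(St R) = 0`: central elements contribute nothing -/
theorem alt3_central {c : St R → St R → St R → M} (hc : IsCoc3 c) {κ h k : St R}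
    (hκ : ∀ z, Commute κ z) (hhk : Commute h k) : alt3 c κ h k = 0 := by
  obtain ⟨T, hT⟩ := exists_lift (Ext.p (hf := coc2On_sl hc κ)) Ext.central spare_nat (stSys R)
    (fun i j _ a => ⟨⟨(stSys R).x i j a, mem_cent (hκ _).symm, 0⟩, rfl⟩)
  have hp : ∀ g, Ext.p (T.lift g) = g := by
    intro g
    induction g using St_induction with
    | h1 => simp
    | hx i j hij a => rw [T.lift_x i j hij, hT i j hij]
    | hmul a b ha hb => rw [map_mul, map_mul, ha, hb]
  have := Ext.symm_of_commute (hhk.map T.lift)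
  rw [hp, hp] at this
  rw [← alt3_cyc, alt3_eq, this, sub_self]

theorem alt3_congr {c : St R → St R → St R → M} (hc : IsCoc3 c) {g g' h k : St R} {d : ℕ → Rˣ}
    (hg : (stSys R).Diag g d) (hg' : (stSys R).Diag g' d) (h1 : Commute g h) (h2 : Commute g k)
    (hhk : Commute h k) : alt3 c g' h k = alt3 c g h k := by
  have e : g' = g * (g⁻¹ * g') := by group
  have hκ := Diag_central hg hg'
  rw [e, alt3_mul hc h1 (hκ _) h2 (hκ _) hhk, alt3_central hc hκ hhk, add_zero]

end

end Crest.Agent.R171
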