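import Mathlib
import Crest.Prelude.Def_Steinberg

/-!
# Row 171 (S0259): definitions

Overview of the proof.  `R = (ℤ[t,x,y]/(t y⁵ - E(x)))_{(x,y)}` with `1 - t x⁵ y⁵ = (1 - x⁵)⁵`.
For units `a b c` the elements `g1 a, g2 b, g3 c` of `St R` (lifts of the diagonal matrices
`diag(a,a,a⁻¹,a⁻¹)`, `diag(b,b⁻¹,b,b⁻¹)`, `diag(c,c⁻¹,c⁻¹,c)`) commute pairwise, hence give a torus
class in `H₃(St R)`.  It is trilinear, antisymmetric and satisfies the Steinberg relation; a suitable
symbol dies over the fraction field and is detected over `R` by a Dennis-trace cocycle.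
Everything is phrased with 3-cocycles `c : G → G → G → M` (trivial action) and `alt3 c g h k`.
-/

set_option autoImplicit false

namespace Crest.Agent.R171

open Crest.AlgebraR.Steinberg

/-- inhomogeneous 3-cocycle with trivial action -/
def IsCoc3 {G M : Type*} [Group G] [AddCommGroup M] (c : G → G → G → M) : Prop :=
  ∀ g h k l, c h k l - c (g * h) k l + c g (h * k) l - c g h (k * l) + c g h k = 0

/-- value of a 3-cochain on the torus chain `g ∧ h ∧ k` -/
def alt3 {G M : Type*} [AddCommGroup M] (c : G → G → G → M) (g h k : G) : M :=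
  c g h k - c h g k - c g k h - c k h g + c h k g + c k g h

/-- A family of elements of a group `G` satisfying the Steinberg relations. -/
structure StSys (I R G : Type*) [CommRing R] [Group G] where
  x : I → I → R → G
  add : ∀ i j, i ≠ j → ∀ a b, x i j a * x i j b = x i j (a + b)
  comm : ∀ i j k l, i ≠ j → k ≠ l → j ≠ k → i ≠ l → ∀ a b, Commute (x i j a) (x k l b)
  mul : ∀ i j l, i ≠ j → j ≠ l → i ≠ l → ∀ a b,
    x i j a * x j l b * (x i j a)⁻¹ * (x j l b)⁻¹ = x i l (a * b)

namespace StSys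
variable {I R G : Type*} [CommRing R] [Group G]

def w (S : StSys I R G) (i j : I) (u : Rˣ) : G :=
  S.x i j u * S.x j i (-(↑u⁻¹ : R)) * S.x i j u

def h (S : StSys I R G) (i j : I) (u : Rˣ) : G := S.w i j u * S.w i j (-1)

end StSys

/-- the generator `x_{ij}(a)` of `St R` (and `1` for `i = j`) -/
def xSt (R : Type*) [CommRing R] (i j : ℕ) (a : R) : St R :=
  if h : i ≠ j then PresentedGroup.mk (rels R) (x i j h a) else 1

theorem mk_eq_one_of_rel {R : Type*} [CommRing R] {w : FreeGroup (Gen R)} (hw : w ∈ rels R) :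
    PresentedGroup.mk (rels R) w = 1 :=
  (QuotientGroup.eq_one_iff _).2 (Subgroup.subset_normalClosure hw)

/-- the tautological Steinberg system in `St R` -/
def stSys (R : Type*) [CommRing R] : StSys ℕ R (St R) where
  x := xSt R
  add i j hij a b := by
    have := mk_eq_one_of_rel (R := R) (Or.inl (Or.inl ⟨i, j, hij, a, b, rfl⟩))
    simp only [map_mul, map_inv, mul_inv_eq_one] at this
    simp [xSt, hij, this]
  comm i j k l hij hkl hjk hil a b := by
    have := mk_eq_one_of_rel (R := R) (Or.inl (Or.inr ⟨i, j, k, l, hij, hkl, a, b, hjk, hil, rfl⟩))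
    simp only [map_mul, map_inv, mul_inv_eq_one, mul_inv_eq_iff_eq_mul] at this
    simp [xSt, hij, hkl, Commute, SemiconjBy, this]
  mul i j l hij hjl hil a b := by
    have := mk_eq_one_of_rel (R := R) (Or.inr ⟨i, j, l, hij, hjl, hil, a, b, rfl⟩)
    simp only [map_mul, map_inv, mul_inv_eq_one] at this
    simp [xSt, hij, hjl, hil, this]

/-- The homomorphism out of `St R` given by a Steinberg system indexed by `ℕ`. -/
def StSys.lift {R G : Type*} [CommRing R] [Group G] (S : StSys ℕ R G) : St R →* G :=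
  PresentedGroup.toGroup (f := fun g : Gen R => S.x g.1.1.1 g.1.1.2 g.2) (by
    rintro w ((⟨i, j, h, a, b, rfl⟩ | ⟨i, j, k, l, hij, hkl, a, b, hjk, hil, rfl⟩) |
      ⟨i, j, l, hij, hjl, hil, a, b, rfl⟩)
    · simp [Crest.AlgebraR.Steinberg.x, S.add i j h]
    · simp [Crest.AlgebraR.Steinberg.x, (S.comm i j k l hij hkl hjk hil a b).eq]
    · simp [Crest.AlgebraR.Steinberg.x, S.mul i j l hij hjl hil])

theorem StSys.lift_x {R G : Type*} [CommRing R] [Group G] (S : StSys ℕ R G) (i j : ℕ) (hij : i ≠ j)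
    (a : R) : S.lift ((stSys R).x i j a) = S.x i j a := by
  have : (stSys R).x i j a = PresentedGroup.of (rels := rels R) (⟨(i, j), hij⟩, a) := by
    simp [stSys, xSt, hij, Crest.AlgebraR.Steinberg.x, PresentedGroup.of]
  rw [this, StSys.lift, PresentedGroup.toGroup.of]

/-- induction principle for `St R` -/
theorem St_induction {R : Type*} [CommRing R] (p : St R → Prop) (h1 : p 1)
    (hx : ∀ i j, i ≠ j → ∀ a, p ((stSys R).x i j a))
    (hmul : ∀ g h, p g → p h → p (g * h)) (g : St R) : p g := by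
  have hinv : ∀ i j, i ≠ j → ∀ a, ((stSys R).x i j a)⁻¹ = (stSys R).x i j (-a) := by
    intro i j hij a
    have h0 : (stSys R).x i j 0 = 1 := by
      have := (stSys R).add i j hij 0 0
      simpa using this
    rw [inv_eq_iff_mul_eq_one, (stSys R).add i j hij, add_neg_cancel, h0]
  induction g using PresentedGroup.induction_on with
  | H w =>
    induction w using FreeGroup.induction_on with
    | C1 => simpa using h1
    | of g =>
      obtain ⟨⟨⟨i, j⟩, hij⟩, a⟩ := g
      have := hx i j hij a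
      simpa [stSys, xSt, hij, Crest.AlgebraR.Steinberg.x] using this
    | inv_of g _ =>
      obtain ⟨⟨⟨i, j⟩, hij⟩, a⟩ := g
      have := hx i j hij (-a)
      rw [← hinv i j hij] at this
      simpa [stSys, xSt, hij, Crest.AlgebraR.Steinberg.x] using this
    | mul u v hu hv => simpa using hmul _ _ hu hv

theorem stMap_x {R R' : Type*} [CommRing R] [CommRing R'] (φ : R →+* R') (i j : ℕ) (a : R) :
    stMap φ ((stSys R).x i j a) = (stSys R').x i j (φ a) := by
  by_cases hij : i ≠ j
  · simp only [stSys, xSt, hij, ne_eq, not_false_eq_true, dite_true]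
    rfl
  · simp [stSys, xSt, hij]

/-- lift of `diag(a,a,a⁻¹,a⁻¹)` -/
def g1 {R G : Type*} [CommRing R] [Group G] (S : StSys ℕ R G) (a : Rˣ) : G := S.h 0 2 a * S.h 1 3 a
/-- lift of `diag(b,b⁻¹,b,b⁻¹)` -/
def g2 {R G : Type*} [CommRing R] [Group G] (S : StSys ℕ R G) (b : Rˣ) : G := S.h 0 1 b * S.h 2 3 b
/-- lift of `diag(c,c⁻¹,c⁻¹,c)` -/
def g3 {R G : Type*} [CommRing R] [Group G] (S : StSys ℕ R G) (c : Rˣ) : G := S.h 0 1 c * S.h 3 2 c

/-- `D` is a `φ`-derivation `R → A` -/
structure IsDer {R A : Type*} [CommRing R] [CommRing A] (φ : R →+* A) (D : R →+ A) : Prop where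
  mul : ∀ a b, D (a * b) = φ a * D b + D a * φ b

/-- `det (D_i a_j)` -/
def det3 {R A : Type*} [CommRing R] [CommRing A] (D₁ D₂ D₃ : R →+ A) (a b c : R) : A :=
  D₁ a * D₂ b * D₃ c - D₁ b * D₂ a * D₃ c - D₁ a * D₂ c * D₃ b - D₁ c * D₂ b * D₃ a
    + D₁ b * D₂ c * D₃ a + D₁ c * D₂ a * D₃ b

end Crest.Agent.R171
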