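import Crest.Agent.R171.Sys

/-! # R171-Lift: Steinberg systems lift along central extensions (Kervaire–Milnor–Steinberg) -/

set_option autoImplicit false

namespace Crest.Agent.R171

section
variable {Y G : Type*} [Group Y] [Group G] (p : Y →* G) (hc : ∀ y, p y = 1 → ∀ z, Commute y z)
include hc

theorem conj_congr {u u' : Y} (hu : p u = p u') (z : Y) : u * z * u⁻¹ = u' * z * u'⁻¹ := by
  have h1 := hc (u'⁻¹ * u) (by simp [hu]) z
  calc u * z * u⁻¹ = u' * (u'⁻¹ * u * z) * u⁻¹ := by group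
    _ = u' * (z * (u'⁻¹ * u)) * u⁻¹ := by rw [h1.eq]
    _ = _ := by group

theorem comm_congr {u u' v v' : Y} (hu : p u = p u') (hv : p v = p v') :
    u * v * u⁻¹ * v⁻¹ = u' * v' * u'⁻¹ * v'⁻¹ := by
  rw [conj_congr p hc hu v]
  have := conj_congr p hc hv u'⁻¹
  calc u' * v * u'⁻¹ * v⁻¹ = u' * (v * u'⁻¹ * v⁻¹) := by group
    _ = _ := by rw [this]; group

variable {I R : Type*} [CommRing R] (hI : Spare I) (S : StSys I R G)
  (hs : ∀ i j, i ≠ j → ∀ a, ∃ y, p y = S.x i j a)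
include hI hs

theorem lift_commute {i j k l : I} (hij : i ≠ j) (hkl : k ≠ l) (hjk : j ≠ k) (hil : i ≠ l)
    {a b : R} {u v : Y} (hu : p u = S.x i j a) (hv : p v = S.x k l b) : Commute u v := by
  obtain ⟨n, hni, hnj, hnk, hnl⟩ := hI i j k l
  obtain ⟨y, hy⟩ := hs k n hnk.symm b
  obtain ⟨y', hy'⟩ := hs n l hnl 1
  have h1 : p (u * y * u⁻¹) = p y := by
    simp only [map_mul, map_inv, hu, hy]
    rw [(S.comm i j k n hij hnk.symm hjk hni.symm a b).eq, mul_inv_cancel_right]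
  have h2 : p (u * y' * u⁻¹) = p y' := by
    simp only [map_mul, map_inv, hu, hy']
    rw [(S.comm i j n l hij hnl hnj.symm hil a 1).eq, mul_inv_cancel_right]
  have h3 := comm_congr p hc h1 h2
  have h4 : p (y * y' * y⁻¹ * y'⁻¹) = p v := by
    simp only [map_mul, map_inv, hv, hy, hy']
    rw [S.mul k n l hnk.symm hnl hkl, mul_one]
  have h5 : u * (y * y' * y⁻¹ * y'⁻¹) * u⁻¹ = y * y' * y⁻¹ * y'⁻¹ := by
    refine Eq.trans ?_ h3; group
  have h6 := conj_congr p hc h4 u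
  have h7 : (y * y' * y⁻¹ * y'⁻¹) * u * (y * y' * y⁻¹ * y'⁻¹)⁻¹ = u := by
    rw [mul_inv_eq_iff_eq_mul] at h5 ⊢
    exact h5.symm
  rw [h7, eq_mul_inv_iff_mul_eq] at h6
  exact h6

theorem lift_indep {h m i k : I} (hm : h ≠ m) (hi : h ≠ i) (hk : h ≠ k) (mi : m ≠ i) (mk : m ≠ k)
    (ik : i ≠ k) {a b : R} {u v u' v' : Y} (hu : p u = S.x h i a) (hv : p v = S.x i k b)
    (hu' : p u' = S.x h m 1) (hv' : p v' = S.x m k (a * b)) :
    u * v * u⁻¹ * v⁻¹ = u' * v' * u'⁻¹ * v'⁻¹ := by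
  obtain ⟨y, hy⟩ := hs m i mi a
  have hA : p (u' * y * u'⁻¹ * y⁻¹) = S.x h i a := by
    simp only [map_mul, map_inv, hu', hy]
    rw [S.mul h m i hm mi hi, one_mul]
  have hB : p (y * v * y⁻¹ * v⁻¹) = S.x m k (a * b) := by
    simp only [map_mul, map_inv, hv, hy]
    rw [S.mul m i k mi ik mk]
  rw [comm_congr p hc (hu.trans hA.symm) rfl, comm_congr p hc rfl (hv'.trans hB.symm)]
  have c1 : Commute u' v := lift_commute p hc hI S hs hm ik mi hk hu' hv
  have c2 := lift_commute p hc hI S hs hi mk mi.symm hk hA hB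
  have hC : p ((u' * y * u'⁻¹ * y⁻¹) * v * (u' * y * u'⁻¹ * y⁻¹)⁻¹ * v⁻¹) = S.x h k (a * b) := by
    rw [map_mul, map_mul, map_mul, map_inv, map_inv, hA, hv, S.mul h i k hi ik hk]
  have c3 := lift_commute p hc hI S hs hk mk mk.symm hk hC hB
  set A := u' * y * u'⁻¹ * y⁻¹ with hAdef
  set B := y * v * y⁻¹ * v⁻¹ with hBdef
  have e1 : u' * B * u'⁻¹ = A * B * v * A⁻¹ * v⁻¹ := by
    have e2 : u' * v * u'⁻¹ = v := by rw [c1.eq, mul_inv_cancel_right]
    calc u' * B * u'⁻¹ = (u' * y * u'⁻¹) * (u' * v * u'⁻¹) * (u' * y * u'⁻¹)⁻¹ *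
          (u' * v * u'⁻¹)⁻¹ := by rw [hBdef]; group
      _ = _ := by rw [e2, hAdef, hBdef]; group
  rw [e1, c2.eq]
  calc A * v * A⁻¹ * v⁻¹ = (A * v * A⁻¹ * v⁻¹) * B * B⁻¹ := by group
    _ = _ := by rw [c3.eq]; group

theorem exists_lift : ∃ T : StSys I R Y, ∀ i j, i ≠ j → ∀ a, p (T.x i j a) = S.x i j a := by
  classical
  have hs' : ∀ i j a, ∃ y, i ≠ j → p y = S.x i j a := by
    intro i j a
    by_cases h : i ≠ j
    · obtain ⟨y, hy⟩ := hs i j h a; exact ⟨y, fun _ => hy⟩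
    · exact ⟨1, fun h' => absurd h' h⟩
  choose y hy using hs'
  choose n hn1 hn2 hn3 hn4 using fun i j => hI i j i j
  let t : I → I → R → Y := fun i j a =>
    y i (n i j) 1 * y (n i j) j a * (y i (n i j) 1)⁻¹ * (y (n i j) j a)⁻¹
  have ht : ∀ i j, i ≠ j → ∀ a, p (t i j a) = S.x i j a := by
    intro i j hij a
    simp only [t, map_mul, map_inv, hy _ _ _ (hn1 i j).symm, hy _ _ _ (hn2 i j)]
    rw [S.mul _ _ _ (hn1 i j).symm (hn2 i j) hij, one_mul]
  have hD : ∀ h i k, h ≠ i → i ≠ k → h ≠ k → ∀ a b u v, p u = S.x h i a → p v = S.x i k b →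
      u * v * u⁻¹ * v⁻¹ = t h k (a * b) := by
    intro h i k hi ik hk a b u v hu hv
    by_cases hni : n h k = i
    · obtain ⟨m, mh, mi, mk, -⟩ := hI h i k k
      rw [lift_indep p hc hI S hs mh.symm hi hk mi mk ik hu hv (hy h m 1 mh.symm)
        (hy m k (a * b) mk)]
      simp only [t, hni]
      exact lift_indep p hc hI S hs hi mh.symm hk mi.symm ik mk (hy h m 1 mh.symm)
        (hy m k (a * b) mk) (hy h i 1 hi) (by rw [one_mul]; exact hy i k _ ik)
    · exact lift_indep p hc hI S hs (hn1 h k).symm hi hk hni (hn2 h k) ik hu hv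
        (hy _ _ _ (hn1 h k).symm) (hy _ _ _ (hn2 h k))
  refine ⟨⟨t, ?_, ?_, ?_⟩, ht⟩
  · intro i j hij a b
    have h1 := (hn1 i j).symm
    have h2 := hn2 i j
    have e1 : p (y (n i j) j a * y (n i j) j b) = S.x (n i j) j (a + b) := by
      rw [map_mul, hy _ _ _ h2, hy _ _ _ h2, S.add _ _ h2]
    have e2 := hD i (n i j) j h1 h2 hij 1 (a + b) _ _ (hy _ _ 1 h1) e1
    have c1 : Commute (y (n i j) j a) (t i j b) :=
      lift_commute p hc hI S hs h2 hij hij.symm h2 (hy _ _ _ h2) (ht i j hij b)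
    rw [one_mul] at e2
    rw [← e2]
    calc t i j a * t i j b = t i j a * (y (n i j) j a * t i j b) * (y (n i j) j a)⁻¹ := by
          rw [c1.eq]; group
      _ = _ := by simp only [t]; group
  · intro i j k l hij hkl hjk hil a b
    exact lift_commute p hc hI S hs hij hkl hjk hil (ht i j hij a) (ht k l hkl b)
  · intro i j l hij hjl hil a b
    exact hD i j l hij hjl hil a b _ _ (ht i j hij a) (ht j l hjl b)

end

end Crest.Agent.R171
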