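import Crest.Agent.R171.Defs

/-!
# R171-Ring: the ramified regular local ring and its derivations

Plan.  `E(x) = 5 - 10x⁵ + 10x¹⁰ - 5x¹⁵ + x²⁰` (so `x⁵ E(x) = 1 - (1-x⁵)⁵`).
`S = MvPolynomial (Fin 2) ℤ` (or `ℤ[X][X]`) with variables `x,y`; `F = C (y⁵) * X + C (-E(x)) ∈ S[X]`
is irreducible (`Polynomial.irreducible_C_mul_X_add_C`: `y⁵`, `E` relatively prime as `y` is prime and
`y ∤ E(x)`), hence prime (UFD); `B = AdjoinRoot F` is a Noetherian domain, `t = root F`, `t y⁵ = E(x)`.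
`k = FractionRing (ZMod 5)[X]` (or `RatFunc`), `ρ : B →+* k`, `x,y ↦ 0`, `t ↦ X`; `P = ker ρ` is prime
and `P = span {x, y}`: every element of `B` is `s(t) + x p + y q` with `s ∈ ℤ[X]`; `ρ = 0` forces
`5 ∣ s`, and `5 = t y⁵ + 10x⁵ - 10x¹⁰ + 5x¹⁵ - x²⁰ ∈ (x,y)²`.  `R = Localization.AtPrime P`.
`maximalIdeal R = span {x,y}` so `spanFinrank ≤ 2` and `ringKrullDim R ≤ 2`
(`ringKrullDim_le_spanFinrank_maximalIdeal`); `ringKrullDim R = height P ≥ 2` by the chain
`⊥ < Q < P`, `Q = ker (B → (AdjoinRoot E)[X])`, `y ↦ 0`, `x ↦ root`, `t ↦ X` (`E` is Eisenstein at `5`,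
so `AdjoinRoot E` is a domain; `ρ` factors through this map; `y ∈ Q`, `y ≠ 0`, `x ∈ P \ Q`).
Then `IsRegularLocalRing.of_spanFinrank_maximalIdeal_le`.  The map `B → ℤ`, `x,y,t ↦ 1`
(`E(1) = 1`) gives `CharZero B` and `x, y ≠ 0`.
`A = k[x,y]/(x⁵,y⁵)` (e.g. `A₁ = AdjoinRoot (X^5 : k[X])`, `A = AdjoinRoot (X^5 : A₁[X])`;
`x⁴y⁴ ≠ 0` by `AdjoinRoot.mk_eq_zero` and `Polynomial.X_pow_dvd_iff`).
For `(α,β,γ) ∈ A³` the map `t ↦ t + αε, x ↦ x + βε, y ↦ y + γε` is a ring hom
`Φ : B → TrivSqZeroExt A A` (`(y+γε)⁵ = 0`, `E(x+βε) = 0` in char 5); elements outside `P` go to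
units (`s(t) + nilpotent`, `s mod 5 ≠ 0` in `k`; `TrivSqZeroExt.isUnit_iff_isUnit_fst`), so `Φ` extends
to `R` (`IsLocalization.lift`); `φ = fst ∘ Φ` is independent of `(α,β,γ)`
(`IsLocalization.ringHom_ext`), `D = snd ∘ Φ` is a `φ`-derivation.
-/

set_option autoImplicit false

namespace Crest.Agent.R171

namespace Ring

open Polynomial

/-- `E(x)` -/
def Ex {A : Type*} [CommRing A] (x : A) : A := 5 - 10 * x ^ 5 + 10 * x ^ 10 - 5 * x ^ 15 + x ^ 20

theorem Ex_def {A : Type*} [CommRing A] (x : A) :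
    Ex x = 5 - 10 * x ^ 5 + 10 * x ^ 10 - 5 * x ^ 15 + x ^ 20 := rfl

theorem map_Ex {A A' : Type*} [CommRing A] [CommRing A'] (f : A →+* A') (x : A) :
    f (Ex x) = Ex (f x) := by
  simp [Ex, map_ofNat]

/-- `t y⁵ - e` -/
noncomputable def FF {R₀ : Type} [CommRing R₀] (e : R₀) : R₀[X][X] := C (X ^ 5) * X + C (-C e)

theorem FF_prime {R₀ : Type} [CommRing R₀] [IsDomain R₀] [UniqueFactorizationMonoid R₀] {e : R₀}
    (he : e ≠ 0) : Prime (FF e) := by
  have h1 : IsRelPrime (X : R₀[X]) (-C e) := by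
    rw [(prime_X (R := R₀)).irreducible.isRelPrime_iff_not_dvd, X_dvd_iff]
    simpa using he
  have h2 : IsRelPrime ((X : R₀[X]) ^ 5) (-C e) := h1.pow_left
  exact (irreducible_C_mul_X_add_C (pow_ne_zero _ X_ne_zero) h2).prime

/-- universal property -/
noncomputable def liftF {R₀ A : Type} [CommRing R₀] [CommRing A] (e : R₀) (i : R₀ →+* A) (y t : A)
    (h : t * y ^ 5 = i e) : AdjoinRoot (FF e) →+* A :=
  AdjoinRoot.lift (eval₂RingHom i y) t (by
    simp only [FF, eval₂_add, eval₂_mul, eval₂_C, eval₂_X, coe_eval₂RingHom, eval₂_pow, eval₂_neg,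
      map_neg]
    linear_combination h)

theorem liftF_c {R₀ A : Type} [CommRing R₀] [CommRing A] (e : R₀) (i : R₀ →+* A) (y t : A)
    (h : t * y ^ 5 = i e) (r : R₀) : liftF e i y t h (AdjoinRoot.of _ (C r)) = i r := by
  simp [liftF]

theorem liftF_y {R₀ A : Type} [CommRing R₀] [CommRing A] (e : R₀) (i : R₀ →+* A) (y t : A)
    (h : t * y ^ 5 = i e) : liftF e i y t h (AdjoinRoot.of _ X) = y := by
  simp [liftF]

theorem liftF_t {R₀ A : Type} [CommRing R₀] [CommRing A] (e : R₀) (i : R₀ →+* A) (y t : A)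
    (h : t * y ^ 5 = i e) : liftF e i y t h (AdjoinRoot.root _) = t := by
  simp [liftF]

theorem relF {R₀ : Type} [CommRing R₀] (e : R₀) :
    AdjoinRoot.root (FF e) * (AdjoinRoot.of (FF e) X) ^ 5 = AdjoinRoot.of (FF e) (C e) := by
  have key : ∀ {A : Type} [CommRing A] (i : R₀[X] →+* A) (r : A), eval₂ i r (FF e) = 0 →
      r * (i X) ^ 5 = i (C e) := by
    intro A _ i r this
    rw [FF, eval₂_add, eval₂_mul, eval₂_C, eval₂_X, eval₂_C, map_pow, map_neg] at this
    linear_combination this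
  exact key _ _ (AdjoinRoot.eval₂_root (FF e))

/-- the ring `B = ℤ[t,x,y]/(t y⁵ - E(x))` -/
abbrev B : Type := AdjoinRoot (FF (Ex (X : ℤ[X])))

noncomputable def xB : B := AdjoinRoot.of _ (C X)
noncomputable def yB : B := AdjoinRoot.of _ X
noncomputable def tB : B := AdjoinRoot.root _

theorem Ex_ne : Ex (X : ℤ[X]) ≠ 0 := by
  intro h
  have := congrArg (eval 1) h
  simp [Ex] at this

instance : IsDomain B := AdjoinRoot.isDomain_of_prime (FF_prime Ex_ne)

theorem relB : tB * yB ^ 5 = Ex xB := by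
  have := relF (Ex (X : ℤ[X]))
  rw [map_Ex, map_Ex] at this
  exact this

noncomputable def liftB {A : Type} [CommRing A] (x y t : A) (h : t * y ^ 5 = Ex x) : B →+* A :=
  liftF _ (eval₂RingHom (Int.castRingHom A) x) y t (by rw [map_Ex]; simpa using h)

@[simp] theorem liftB_x {A : Type} [CommRing A] (x y t : A) (h : t * y ^ 5 = Ex x) :
    liftB x y t h xB = x := by
  rw [liftB, xB, liftF_c]; simp

@[simp] theorem liftB_y {A : Type} [CommRing A] (x y t : A) (h : t * y ^ 5 = Ex x) :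
    liftB x y t h yB = y := by
  rw [liftB, yB, liftF_y]

@[simp] theorem liftB_t {A : Type} [CommRing A] (x y t : A) (h : t * y ^ 5 = Ex x) :
    liftB x y t h tB = t := by
  rw [liftB, tB, liftF_t]

theorem B_ext {A : Type} [CommRing A] {f g : B →+* A} (hx : f xB = g xB) (hy : f yB = g yB)
    (ht : f tB = g tB) : f = g := by
  apply AdjoinRoot.ringHom_ext _ ht
  apply Polynomial.ringHom_ext' _ hy
  apply Polynomial.ringHom_ext' _ hx
  exact RingHom.ext_int _ _

instance : Fact (Nat.Prime 5) := ⟨by norm_num⟩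

theorem five_eq : (5 : (ZMod 5)[X]) = 0 := by
  have : (5 : ZMod 5) = 0 := by decide
  rw [← map_ofNat (C : ZMod 5 →+* _) 5, this, map_zero]

/-- reduction -/
noncomputable def rho : B →+* (ZMod 5)[X] := liftB 0 0 X (by simp [Ex, five_eq])

noncomputable def P : Ideal B := RingHom.ker rho

instance : P.IsPrime := RingHom.ker_isPrime _

theorem x_mem : xB ∈ P := by simp [P, rho, RingHom.mem_ker]
theorem y_mem : yB ∈ P := by simp [P, rho, RingHom.mem_ker]

theorem five_B : (5 : B) = (tB * yB ^ 3) * (yB * yB) +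
    (10 * xB ^ 3 - 10 * xB ^ 8 + 5 * xB ^ 13 - xB ^ 18) * (xB * xB) := by
  have := relB
  rw [Ex_def xB] at this
  linear_combination -this

theorem P_eq : P = Ideal.span {xB, yB} := by
  apply le_antisymm
  · set I : Ideal B := Ideal.span {xB, yB}
    have hx : xB ∈ I := Ideal.subset_span (by simp)
    have hy : yB ∈ I := Ideal.subset_span (by simp)
    have h5 : ((5 : ℕ) : B ⧸ I) = 0 := by
      have : (5 : B) ∈ I := by
        rw [five_B]
        exact I.add_mem (I.mul_mem_left _ (I.mul_mem_left _ hy))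
          (I.mul_mem_left _ (I.mul_mem_left _ hx))
      have h := Ideal.Quotient.eq_zero_iff_mem.2 this
      simpa [map_ofNat] using h
    let ψ₀ : ZMod 5 →+* B ⧸ I := ZMod.castHom (ringChar.dvd h5) (B ⧸ I)
    let ψ : (ZMod 5)[X] →+* B ⧸ I := eval₂RingHom ψ₀ (Ideal.Quotient.mk I tB)
    have : ψ.comp rho = Ideal.Quotient.mk I := by
      apply B_ext
      · simp [rho, Ideal.Quotient.eq_zero_iff_mem.2 hx]
      · simp [rho, Ideal.Quotient.eq_zero_iff_mem.2 hy]
      · simp [rho, ψ]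
    intro b hb
    rw [← Ideal.Quotient.eq_zero_iff_mem, ← this, RingHom.comp_apply, (RingHom.mem_ker).1 hb,
      map_zero]
  · rw [Ideal.span_le]
    rintro z (rfl | rfl)
    · exact x_mem
    · exact y_mem

/-- evaluation at `(1,1,1)` -/
noncomputable def ev1 : B →+* ℤ := liftB 1 1 1 (by simp [Ex])

theorem x_ne : xB ≠ 0 := fun h => by
  have := congrArg ev1 h
  simp [ev1] at this

theorem y_ne : yB ≠ 0 := fun h => by
  have := congrArg ev1 h
  simp [ev1] at this

instance : CharZero B := ev1.charZero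

theorem two_le_height : (2 : ℕ∞) ≤ P.height := by
  let D := AdjoinRoot (FF (5 : ℤ))
  have : IsDomain D := AdjoinRoot.isDomain_of_prime (FF_prime (by norm_num))
  have hrel : AdjoinRoot.root (FF (5 : ℤ)) * (AdjoinRoot.of (FF (5 : ℤ)) X) ^ 5 = Ex 0 := by
    rw [relF]; simp [Ex, map_ofNat]
  let κ : B →+* D := liftB 0 (AdjoinRoot.of _ X) (AdjoinRoot.root _) hrel
  let ν : D →+* (ZMod 5)[X] := liftF 5 (Int.castRingHom _) 0 X (by simp [five_eq])
  let μ : D →+* ℤ := liftF 5 (Int.castRingHom _) 1 5 (by simp)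
  have hν : ν.comp κ = rho := by
    apply B_ext
    · simp [κ, rho]
    · simp only [κ, rho, RingHom.comp_apply, liftB_y]; exact liftF_y _ _ _ _ _
    · simp only [κ, rho, RingHom.comp_apply, liftB_t]; exact liftF_t _ _ _ _ _
  let Q : Ideal B := RingHom.ker κ
  have : Q.IsPrime := RingHom.ker_isPrime _
  have h1 : (⊥ : Ideal B) < Q := by
    rw [bot_lt_iff_ne_bot]
    intro h
    have : xB ∈ Q := by simp [Q, κ, RingHom.mem_ker]
    rw [h] at this
    exact x_ne this
  have h2 : Q < P := by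
    refine lt_of_le_of_ne ?_ ?_
    · intro b hb
      have hb' : κ b = 0 := hb
      change rho b = 0
      rw [← hν, RingHom.comp_apply, hb', map_zero]
    · intro h
      have hy : yB ∈ Q := h ▸ y_mem
      have hy' : κ yB = 0 := hy
      have h3 : μ (κ yB) = 1 := by
        simp only [κ, liftB_y]; exact liftF_y _ _ _ _ _
      rw [hy', map_zero] at h3
      exact zero_ne_one h3
  have : (⊥ : Ideal B).IsPrime := Ideal.isPrime_bot
  have a1 := Ideal.height_add_one_le_of_lt_of_isPrime h1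
  have a2 := Ideal.height_add_one_le_of_lt_of_isPrime h2
  calc (2 : ℕ∞) = 0 + 1 + 1 := by norm_num
    _ ≤ (⊥ : Ideal B).height + 1 + 1 := by gcongr; exact zero_le
    _ ≤ Q.height + 1 := by gcongr
    _ ≤ P.height := a2

/-- the local ring -/
abbrev RR : Type := Localization.AtPrime P

theorem inj : Function.Injective (algebraMap B RR) :=
  IsLocalization.injective RR P.primeCompl_le_nonZeroDivisors

theorem max_eq : IsLocalRing.maximalIdeal RR =
    Ideal.span {algebraMap B RR xB, algebraMap B RR yB} := by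
  rw [← Localization.AtPrime.map_eq_maximalIdeal]
  conv_lhs => arg 2; rw [P_eq]
  rw [Ideal.map_span, Set.image_pair]

theorem span_le : (IsLocalRing.maximalIdeal RR).spanFinrank ≤ 2 := by
  rw [max_eq]
  refine (Submodule.spanFinrank_span_le_ncard_of_finite (Set.toFinite _)).trans ?_
  exact (Set.ncard_insert_le _ _).trans (by simp)

theorem dim_eq : ringKrullDim RR = 2 := by
  apply le_antisymm
  · refine (ringKrullDim_le_spanFinrank_maximalIdeal RR).trans ?_
    exact_mod_cast span_le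
  · rw [IsLocalization.AtPrime.ringKrullDim_eq_height P RR]
    exact WithBot.coe_le_coe.2 two_le_height

instance : IsRegularLocalRing RR := by
  apply IsRegularLocalRing.of_spanFinrank_maximalIdeal_le
  rw [dim_eq]
  exact_mod_cast span_le

/-! ### the target ring -/

abbrev kk : Type := FractionRing (ZMod 5)[X]
abbrev A1 : Type := AdjoinRoot (X ^ 5 : kk[X])
abbrev AA : Type := AdjoinRoot (X ^ 5 : A1[X])

noncomputable def jj : (ZMod 5)[X] →+* AA :=
  (AdjoinRoot.of _).comp ((AdjoinRoot.of _).comp (algebraMap (ZMod 5)[X] kk))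
noncomputable def xA : AA := AdjoinRoot.of _ (AdjoinRoot.root _)
noncomputable def yA : AA := AdjoinRoot.root _

theorem root_pow {k : Type} [CommRing k] : (AdjoinRoot.root (X ^ 5 : k[X])) ^ 5 = 0 := by
  have := AdjoinRoot.eval₂_root (X ^ 5 : k[X])
  simpa using this

theorem xA_pow : xA ^ 5 = 0 := by rw [xA, ← map_pow, root_pow, map_zero]
theorem yA_pow : yA ^ 5 = 0 := root_pow
theorem five_A : (5 : AA) = 0 := by
  rw [← map_ofNat jj 5, five_eq, map_zero]

theorem of_mul_root_ne {k : Type} [CommRing k] {a : k} (ha : a ≠ 0) :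
    AdjoinRoot.of (X ^ 5 : k[X]) a * (AdjoinRoot.root (X ^ 5 : k[X])) ^ 4 ≠ 0 := by
  intro h
  have h' : AdjoinRoot.mk (X ^ 5 : k[X]) (C a * X ^ 4) = 0 := by
    rw [map_mul, map_pow, AdjoinRoot.mk_X, AdjoinRoot.mk_C]; exact h
  rw [AdjoinRoot.mk_eq_zero, X_pow_dvd_iff] at h'
  have := h' 4 (by norm_num)
  simp at this
  exact ha this

theorem xy_ne : xA ^ 4 * yA ^ 4 ≠ 0 := by
  rw [xA, yA, ← map_pow]
  apply of_mul_root_ne
  have := of_mul_root_ne (k := kk) one_ne_zero
  simpa using this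

theorem jj_unit {s : (ZMod 5)[X]} (hs : s ≠ 0) : IsUnit (jj s) := by
  have : algebraMap (ZMod 5)[X] kk s ≠ 0 := by
    simpa using hs
  exact (this.isUnit.map (AdjoinRoot.of (X ^ 5 : kk[X]))).map (AdjoinRoot.of (X ^ 5 : A1[X]))

theorem pow5 {T : Type} [CommRing T] (h5 : (5 : T) = 0) {a e : T} (ha : a ^ 5 = 0) (he : e * e = 0) :
    (a + e) ^ 5 = 0 := by
  linear_combination ha + (a ^ 4 * e) * h5 + (10 * a ^ 3 + 10 * a ^ 2 * e + 5 * a * e ^ 2 + e ^ 3) * he

theorem Ex_zero {T : Type} [CommRing T] (h5 : (5 : T) = 0) {z : T} (hz : z ^ 5 = 0) : Ex z = 0 := by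
  unfold Ex
  linear_combination h5 + (-10 + 10 * z ^ 5 - 5 * z ^ 10 + z ^ 15) * hz

open TrivSqZeroExt

abbrev TT : Type := TrivSqZeroExt AA AA

theorem five_T : (5 : TT) = 0 := by
  rw [← map_ofNat (inlHom AA AA) 5, five_A, map_zero]

theorem inl_pow5 {a : AA} (h : a ^ 5 = 0) : (inl a : TT) ^ 5 = 0 := by
  change (inlHom AA AA a) ^ 5 = 0
  rw [← map_pow, h, map_zero]

noncomputable def Phi0 (α β γ : AA) : B →+* TT :=
  liftB (inl xA + inr β) (inl yA + inr γ) (inl (jj X) + inr α) (by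
    rw [pow5 five_T (inl_pow5 yA_pow) (inr_mul_inr _ _ _), mul_zero,
      Ex_zero five_T (pow5 five_T (inl_pow5 xA_pow) (inr_mul_inr _ _ _))])

noncomputable def phi0 : B →+* AA :=
  liftB xA yA (jj X) (by rw [yA_pow, mul_zero, Ex_zero five_A xA_pow])

noncomputable def fstR : TT →+* AA := (fstHom AA AA AA).toRingHom

theorem fstR_apply (z : TT) : fstR z = z.fst := rfl

theorem fst_Phi0 (α β γ : AA) : fstR.comp (Phi0 α β γ) = phi0 := by
  apply B_ext <;> simp [Phi0, phi0, fstR_apply]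

theorem phi0_unit (b : P.primeCompl) : IsUnit (phi0 b) := by
  let N := nilradical AA
  have hx : xA ∈ N := mem_nilradical.2 ⟨5, xA_pow⟩
  have hy : yA ∈ N := mem_nilradical.2 ⟨5, yA_pow⟩
  have h : (Ideal.Quotient.mk N).comp phi0 = (Ideal.Quotient.mk N).comp (jj.comp rho) := by
    apply B_ext
    · simp [phi0, rho, Ideal.Quotient.eq_zero_iff_mem.2 hx]
    · simp [phi0, rho, Ideal.Quotient.eq_zero_iff_mem.2 hy]
    · simp [phi0, rho]
  have h1 : phi0 b - jj (rho b) ∈ N := by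
    rw [← Ideal.Quotient.eq]
    exact RingHom.congr_fun h b
  have h2 : IsUnit (jj (rho b)) := jj_unit b.2
  have := (mem_nilradical.1 h1).isUnit_add_right_of_commute h2 (Commute.all _ _)
  simpa using this

theorem Phi0_unit (α β γ : AA) (b : P.primeCompl) : IsUnit (Phi0 α β γ b) := by
  rw [isUnit_iff_isUnit_fst, ← fstR_apply, ← RingHom.comp_apply, fst_Phi0]
  exact phi0_unit b

noncomputable def Phi (α β γ : AA) : RR →+* TT := IsLocalization.lift (Phi0_unit α β γ)

noncomputable def phi : RR →+* AA := IsLocalization.lift phi0_unit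

theorem fst_Phi (α β γ : AA) (r : RR) : (Phi α β γ r).fst = phi r := by
  have : fstR.comp (Phi α β γ) = phi := by
    apply IsLocalization.ringHom_ext P.primeCompl
    rw [RingHom.comp_assoc, Phi, IsLocalization.lift_comp, fst_Phi0, phi, IsLocalization.lift_comp]
  exact RingHom.congr_fun this r

noncomputable def Der (α β γ : AA) : RR →+ AA where
  toFun r := (Phi α β γ r).snd
  map_zero' := by simp
  map_add' a b := by simp

theorem Der_isDer (α β γ : AA) : IsDer phi (Der α β γ) := ⟨fun a b => by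
  change (Phi α β γ (a * b)).snd = phi a * (Phi α β γ b).snd + (Phi α β γ a).snd * phi b
  rw [map_mul, snd_mul, fst_Phi, fst_Phi]
  simp⟩

theorem Der_alg (α β γ : AA) (b : B) : Der α β γ (algebraMap B RR b) = (Phi0 α β γ b).snd := by
  change (Phi α β γ _).snd = _
  rw [Phi, IsLocalization.lift_eq]

theorem phi_alg (b : B) : phi (algebraMap B RR b) = phi0 b := by
  rw [phi, IsLocalization.lift_eq]

end Ring

open _root_.Crest.Agent.R171.Ring in
theorem exists_ring : ∃ (R : Type) (_ : CommRing R) (_ : IsDomain R) (_ : IsRegularLocalRing R),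
    ringKrullDim R = 2 ∧ CharZero R ∧ (5 : R) ∈ IsLocalRing.maximalIdeal R ^ 2 ∧
    ∃ t x y : R, x ∈ IsLocalRing.maximalIdeal R ∧ y ∈ IsLocalRing.maximalIdeal R ∧
      x ≠ 0 ∧ y ≠ 0 ∧ 1 - t * x ^ 5 * y ^ 5 = (1 - x ^ 5) ^ 5 ∧
      ∃ (A : Type) (_ : CommRing A) (φ : R →+* A) (D₁ D₂ D₃ : R →+ A),
        IsDer φ D₁ ∧ IsDer φ D₂ ∧ IsDer φ D₃ ∧ (5 : A) = 0 ∧ φ x ^ 4 * φ y ^ 4 ≠ 0 ∧
        D₁ t = 1 ∧ D₁ x = 0 ∧ D₁ y = 0 ∧ D₂ t = 0 ∧ D₂ x = 1 ∧ D₂ y = 0 ∧
        D₃ t = 0 ∧ D₃ x = 0 ∧ D₃ y = 1 := by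
  have hx : algebraMap B RR xB ∈ IsLocalRing.maximalIdeal RR := by
    rw [max_eq]; exact Ideal.subset_span (by simp)
  have hy : algebraMap B RR yB ∈ IsLocalRing.maximalIdeal RR := by
    rw [max_eq]; exact Ideal.subset_span (by simp)
  refine ⟨RR, inferInstance, inferInstance, inferInstance, dim_eq,
    charZero_of_injective_ringHom inj, ?_, algebraMap B RR tB, algebraMap B RR xB,
    algebraMap B RR yB, hx, hy, ?_, ?_, ?_, AA, inferInstance, phi, Der 1 0 0, Der 0 1 0, Der 0 0 1,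
    Der_isDer _ _ _, Der_isDer _ _ _, Der_isDer _ _ _, five_A, ?_, ?_⟩
  · rw [← map_ofNat (algebraMap B RR) 5, five_B, map_add, map_mul, map_mul _ _ (xB * xB),
      map_mul _ yB, map_mul _ xB, sq]
    exact Ideal.add_mem _ (Ideal.mul_mem_left _ _ (Ideal.mul_mem_mul hy hy))
      (Ideal.mul_mem_left _ _ (Ideal.mul_mem_mul hx hx))
  · exact (map_ne_zero_iff _ inj).2 x_ne
  · exact (map_ne_zero_iff _ inj).2 y_ne
  · have := congrArg (algebraMap B RR) relB
    rw [map_Ex, map_mul, map_pow, Ex_def (algebraMap B RR xB)] at this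
    linear_combination (-(algebraMap B RR xB) ^ 5) * this
  · rw [phi_alg, phi_alg]
    simpa [phi0] using xy_ne
  · simp [Der_alg, Phi0]

end Crest.Agent.R171
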