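import Crest.Agent.R171.Defs

/-!
# R171-Trace: the Dennis-trace cocycle on `St R`

Plan.  `𝓔 := Module.End A (ℕ →₀ A)` (a ring), matrix units `E i j a := (single i a) ∘ (coordinate j)`
(`E i j a * E k l b = if j = k then E i l (a*b) else 0`, additive in `a`).
`𝓕 := {T | ∃ N, ∀ j ≥ N, T (single j 1) = 0}` is a left ideal containing the `E i j a`;
`tr T := ∑ᶠ j, T (single j 1) j` is additive on `𝓕` and `tr (S*T) = tr (T*S)` for `S T ∈ 𝓕`
(both are finite matrices; alternatively show `𝓕` is spanned additively by the `E i j a` and check on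
those), hence `tr (P*T) = tr (T*P)` when `T ∈ 𝓕`, `P - 1 ∈ 𝓕`.
For a `φ`-derivation `D`, the elements `1 + inl (E i j (φ r)) + inr (E i j (D r))` of
`TrivSqZeroExt 𝓔 𝓔` (units, inverse with `-r`) form a `StSys ℕ R (TrivSqZeroExt 𝓔 𝓔)ˣ`
(general lemma: additive maps `e i j : R →+ 𝓡` into a ring with `e i j a * e k l b = δ_jk e i l (ab)`
give a `StSys` in `𝓡ˣ`; note `φ 1 = 1`, `D 1 = 0`), so `StSys.lift` gives `Π_D : St R →* _`.
`π g := fst (Π_D g)` does not depend on `D` (`St_induction`), `δ_D g := snd (Π_D g)` satisfies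
`δ (g h) = π g * δ h + δ g * π h`; `π g - 1 ∈ 𝓕`, `δ g ∈ 𝓕` (`St_induction`).
`c g h k := tr (δ₁ g * δ₂ h * δ₃ k * π (g h k)⁻¹)` is a cocycle: expand with the Leibniz rule; the
term `tr (π g * X * π (h k l)⁻¹ * π g⁻¹) = tr (X * π (h k l)⁻¹)`, and `π l * π (g h k l)⁻¹ = π (g h k)⁻¹`.
Image of `h i j u` in `𝓡ˣ` is `1 + e i i (u - 1) + e j j (u⁻¹ - 1)` (compute
`w i j u ↦ 1 - e i i 1 - e j j 1 + e i j u - e j i u⁻¹`), so `π (g_m a)`, `δ (g_m a)` are diagonal with
entries `φ (a^{±1})`, `D (a^{±1})` at the indices `0..3` (`D a⁻¹ = -φ a⁻¹ ^ 2 * D a`), and the trace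
is a sum of four terms, each equal to `φ (a⁻¹ b⁻¹ c⁻¹) * D₁ _ * D₂ _ * D₃ _`
(signs `(1,1,-1,-1)·(1,-1,1,-1)·(1,-1,-1,1) = (1,1,1,1)`).
-/

set_option autoImplicit false

namespace Crest.Agent.R171

open Crest.AlgebraR.Steinberg

namespace Trace

/-- abstract trace cocycle -/
theorem coc_of_trace {G 𝓡 A : Type*} [Group G] [Ring 𝓡] [AddCommGroup A] (F : AddSubgroup 𝓡)
    (hF : ∀ S T, T ∈ F → S * T ∈ F) (τ : 𝓡 → A)
    (τadd : ∀ S ∈ F, ∀ T ∈ F, τ (S + T) = τ S + τ T)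
    (τcomm : ∀ S ∈ F, ∀ T ∈ F, τ (S * T) = τ (T * S))
    (π : G →* 𝓡) (hπ : ∀ g, π g - 1 ∈ F) (δ₁ δ₂ δ₃ : G → 𝓡)
    (h₁ : ∀ g h, δ₁ (g * h) = π g * δ₁ h + δ₁ g * π h)
    (h₂ : ∀ g h, δ₂ (g * h) = π g * δ₂ h + δ₂ g * π h)
    (h₃ : ∀ g h, δ₃ (g * h) = π g * δ₃ h + δ₃ g * π h)
    (f₃ : ∀ g, δ₃ g ∈ F) :
    IsCoc3 (fun g h k => τ (δ₁ g * δ₂ h * δ₃ k * π (g * h * k)⁻¹)) := by
  have hr : ∀ T ∈ F, ∀ g, T * π g ∈ F := by
    intro T hT g
    have : T * π g = T + T * (π g - 1) := by noncomm_ring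
    rw [this]
    exact F.add_mem hT (hF _ _ (hπ g))
  have hc : ∀ T ∈ F, ∀ g, τ (π g * T) = τ (T * π g) := by
    intro T hT g
    have e1 : π g * T = T + (π g - 1) * T := by noncomm_ring
    have e2 : T * π g = T + T * (π g - 1) := by noncomm_ring
    rw [e1, e2, τadd _ hT _ (hF _ _ hT), τadd _ hT _ (hF _ _ (hπ g)), τcomm _ (hπ g) _ hT]
  have hm : ∀ X l g, X * δ₃ l * π g ∈ F := fun X l g => hr _ (hF _ _ (f₃ l)) g
  intro g h k l
  set W := (g * h * k * l)⁻¹ with hW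
  have w1 : (g * (h * k) * l)⁻¹ = W := by rw [hW]; group
  have w2 : (g * h * (k * l))⁻¹ = W := by rw [hW]; group
  have a1 : τ (δ₁ h * δ₂ k * δ₃ l * π (h * k * l)⁻¹) = τ (π g * δ₁ h * δ₂ k * δ₃ l * π W) := by
    have : π g * δ₁ h * δ₂ k * δ₃ l * π W = π g * (δ₁ h * δ₂ k * δ₃ l * π W) := by noncomm_ring
    rw [this, hc _ (hm _ _ _), mul_assoc _ (π W), ← map_mul]
    congr 3
    rw [hW]; group
  have a2 : τ (δ₁ (g * h) * δ₂ k * δ₃ l * π W) =
      τ (π g * δ₁ h * δ₂ k * δ₃ l * π W) + τ (δ₁ g * π h * δ₂ k * δ₃ l * π W) := by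
    rw [← τadd _ (hm _ _ _) _ (hm _ _ _), h₁]
    congr 1; noncomm_ring
  have a3 : τ (δ₁ g * δ₂ (h * k) * δ₃ l * π W) =
      τ (δ₁ g * π h * δ₂ k * δ₃ l * π W) + τ (δ₁ g * δ₂ h * π k * δ₃ l * π W) := by
    rw [← τadd _ (hm _ _ _) _ (hm _ _ _), h₂]
    congr 1; noncomm_ring
  have a4 : τ (δ₁ g * δ₂ h * δ₃ (k * l) * π W) =
      τ (δ₁ g * δ₂ h * π k * δ₃ l * π W) + τ (δ₁ g * δ₂ h * δ₃ k * π (g * h * k)⁻¹) := by
    have : (g * h * k)⁻¹ = l * W := by rw [hW]; group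
    rw [← τadd _ (hm _ _ _) _ (hm _ _ _), h₃, this, map_mul]
    congr 1; noncomm_ring
  simp only [w1, w2]
  rw [a1, a2, a3, a4]
  abel

/-- matrix units with coefficients in `R` -/
structure MU (R 𝓡 : Type*) [CommRing R] [Ring 𝓡] where
  e : ℕ → ℕ → R →+ 𝓡
  mul : ∀ i j k l a b, e i j a * e k l b = if j = k then e i l (a * b) else 0

namespace MU
variable {R 𝓡 : Type*} [CommRing R] [Ring 𝓡] (M : MU R 𝓡)

def xu (i j : ℕ) (a : R) : 𝓡ˣ :=
  if h : i ≠ j then
    ⟨1 + M.e i j a, 1 - M.e i j a, by simp [mul_sub, add_mul, M.mul, h.symm],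
      by simp [mul_add, sub_mul, M.mul, h.symm]⟩
  else 1

theorem xu_val {i j : ℕ} (h : i ≠ j) (a : R) : (M.xu i j a : 𝓡) = 1 + M.e i j a := by
  simp [xu, h]

theorem xu_inv {i j : ℕ} (h : i ≠ j) (a : R) : (↑(M.xu i j a)⁻¹ : 𝓡) = 1 - M.e i j a := by
  simp [xu, h]

def sys : StSys ℕ R 𝓡ˣ where
  x := M.xu
  add i j hij a b := by
    ext
    simp only [Units.val_mul, M.xu_val hij, mul_add, add_mul, M.mul, hij.symm, if_false, map_add,
      mul_one, one_mul]
    abel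
  comm i j k l hij hkl hjk hil a b := by
    rw [Commute, SemiconjBy]
    ext
    simp only [Units.val_mul, M.xu_val hij, M.xu_val hkl, mul_add, add_mul, M.mul, hjk, hil.symm,
      if_false, mul_one, one_mul]
    abel
  mul i j l hij hjl hil a b := by
    ext
    simp only [Units.val_mul, M.xu_val hij, M.xu_val hjl, M.xu_val hil, M.xu_inv hij, M.xu_inv hjl,
      mul_add, add_mul, mul_sub, sub_mul, M.mul, hij.symm, hjl.symm, hil.symm, if_false, if_true,
      mul_one, one_mul, zero_mul]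
    abel

theorem sys_x {i j : ℕ} (h : i ≠ j) (a : R) : (M.sys.x i j a : 𝓡) = 1 + M.e i j a := M.xu_val h a

theorem w_val {i j : ℕ} (h : i ≠ j) (u : Rˣ) : (M.sys.w i j u : 𝓡) =
    1 - M.e i i 1 - M.e j j 1 + M.e i j u - M.e j i (↑u⁻¹ : R) := by
  simp only [StSys.w, Units.val_mul, M.sys_x h, M.sys_x h.symm, mul_add, add_mul, M.mul, h, h.symm,
    if_false, if_true, mul_one, one_mul, mul_neg, neg_mul, map_neg, Units.mul_inv, Units.inv_mul,
    neg_zero]
  abel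

theorem h_val {i j : ℕ} (h : i ≠ j) (u : Rˣ) : (M.sys.h i j u : 𝓡) =
    1 + M.e i i (u - 1) + M.e j j ((↑u⁻¹ : R) - 1) := by
  simp only [StSys.h, Units.val_mul, M.w_val h, mul_add, add_mul, mul_sub, sub_mul, M.mul, h, h.symm,
    if_false, if_true, mul_one, one_mul, mul_neg, neg_mul, map_neg, map_sub, inv_neg, inv_one,
    Units.val_neg, Units.val_one, neg_zero]
  abel

/-- diagonal sums -/
def dsum (a : Fin 4 → R) : 𝓡 := ∑ i : Fin 4, M.e i i (a i)

theorem dsum_mul (a b : Fin 4 → R) : M.dsum a * M.dsum b = M.dsum (a * b) := by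
  simp only [dsum, Finset.sum_mul, Finset.mul_sum, M.mul, Fin.val_inj, Pi.mul_apply]
  refine Finset.sum_congr rfl fun i _ => ?_
  rw [Finset.sum_eq_single i]
  · simp
  · intro j _ hj; simp [hj]
  · simp

theorem dsum_add (a b : Fin 4 → R) : M.dsum (a + b) = M.dsum a + M.dsum b := by
  simp [dsum, Finset.sum_add_distrib]

theorem dsum_zero : M.dsum 0 = 0 := by simp [dsum]

def dg (a : Fin 4 → R) : 𝓡 := 1 + M.dsum (a - 1)

theorem dg_mul (a b : Fin 4 → R) : M.dg a * M.dg b = M.dg (a * b) := by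
  have : a * b - 1 = (a - 1) + (b - 1) + (a - 1) * (b - 1) := by ring
  simp only [dg, this, dsum_add, ← dsum_mul]
  noncomm_ring

theorem dg_one : M.dg 1 = 1 := by simp [dg, dsum_zero]

theorem dsum_mul_dg (a b : Fin 4 → R) : M.dsum a * M.dg b = M.dsum (a * b) := by
  have : a * b = a + a * (b - 1) := by ring
  rw [dg, this, dsum_add, ← dsum_mul]
  noncomm_ring

end MU

theorem lift_h {R G : Type*} [CommRing R] [Group G] (S : StSys ℕ R G) {i j : ℕ} (h : i ≠ j)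
    (u : Rˣ) : S.lift ((stSys R).h i j u) = S.h i j u := by
  simp only [StSys.h, StSys.w, map_mul, S.lift_x _ _ h, S.lift_x _ _ h.symm]

/-- `g` maps to the diagonal matrix `a` -/
def IsDg {R 𝓡 : Type*} [CommRing R] [Ring 𝓡] (M : MU R 𝓡) (g : St R) (a : Fin 4 → Rˣ) : Prop :=
  (M.sys.lift g : 𝓡) = M.dg (fun i => a i)

section
variable {R 𝓡 : Type*} [CommRing R] [Ring 𝓡] {M : MU R 𝓡}

theorem IsDg.mul {g h : St R} {a b : Fin 4 → Rˣ} (hg : IsDg M g a) (hh : IsDg M h b) :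
    IsDg M (g * h) (a * b) := by
  unfold IsDg at *
  rw [map_mul, Units.val_mul, hg, hh, M.dg_mul]
  rfl

theorem IsDg.inv {g : St R} {a : Fin 4 → Rˣ} (hg : IsDg M g a) : IsDg M g⁻¹ a⁻¹ := by
  unfold IsDg at *
  rw [map_inv]
  apply Units.inv_eq_of_mul_eq_one_right
  rw [hg, M.dg_mul, ← M.dg_one]
  congr 1
  ext i
  simp

theorem isDg_g1 (M : MU R 𝓡) (a : Rˣ) : IsDg M (g1 (stSys R) a) ![a, a, a⁻¹, a⁻¹] := by
  unfold IsDg
  rw [g1, map_mul, lift_h _ (by norm_num), lift_h _ (by norm_num), Units.val_mul,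
    M.h_val (by norm_num), M.h_val (by norm_num)]
  simp [MU.dg, MU.dsum, Fin.sum_univ_four, mul_add, add_mul, M.mul, -map_sub]
  abel

theorem isDg_g2 (M : MU R 𝓡) (a : Rˣ) : IsDg M (g2 (stSys R) a) ![a, a⁻¹, a, a⁻¹] := by
  unfold IsDg
  rw [g2, map_mul, lift_h _ (by norm_num), lift_h _ (by norm_num), Units.val_mul,
    M.h_val (by norm_num), M.h_val (by norm_num)]
  simp [MU.dg, MU.dsum, Fin.sum_univ_four, mul_add, add_mul, M.mul, -map_sub]
  abel

theorem isDg_g3 (M : MU R 𝓡) (a : Rˣ) : IsDg M (g3 (stSys R) a) ![a, a⁻¹, a⁻¹, a] := by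
  unfold IsDg
  rw [g3, map_mul, lift_h _ (by norm_num), lift_h _ (by norm_num), Units.val_mul,
    M.h_val (by norm_num), M.h_val (by norm_num)]
  simp [MU.dg, MU.dsum, Fin.sum_univ_four, mul_add, add_mul, M.mul, -map_sub]
  abel

end

/-! ### column-finite matrices -/

abbrev EE (A : Type) [CommRing A] : Type := Module.End A (ℕ →₀ A)

variable {A : Type} [CommRing A]

noncomputable def EU (i j : ℕ) : A →+ EE A where
  toFun a := a • (Finsupp.lsingle i ∘ₗ Finsupp.lapply j)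
  map_zero' := zero_smul _ _
  map_add' a b := add_smul _ _ _

theorem EU_apply (i j : ℕ) (a : A) (v : ℕ →₀ A) : EU i j a v = Finsupp.single i (a * v j) := by
  simp [EU]

noncomputable def ME (A : Type) [CommRing A] : MU A (EE A) where
  e := EU
  mul i j k l a b := by
    refine LinearMap.ext fun v => ?_
    rw [Module.End.mul_apply, EU_apply, EU_apply]
    split_ifs with h
    · subst h; simp [EU_apply, mul_assoc]
    · simp [Finsupp.single_eq_of_ne h]

/-- finitely many nonzero columns -/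
def FF (A : Type) [CommRing A] : AddSubgroup (EE A) where
  carrier := {T | ∃ N, ∀ j, N ≤ j → T (Finsupp.single j 1) = 0}
  zero_mem' := ⟨0, fun _ _ => rfl⟩
  add_mem' := by
    rintro S T ⟨N, hN⟩ ⟨K, hK⟩
    exact ⟨max N K, fun j hj => by
      simp [hN j (le_of_max_le_left hj), hK j (le_of_max_le_right hj)]⟩
  neg_mem' := by
    rintro T ⟨N, hN⟩
    exact ⟨N, fun j hj => by simp [hN j hj]⟩

theorem FF_mul (S T : EE A) (hT : T ∈ FF A) : S * T ∈ FF A := by
  obtain ⟨N, hN⟩ := hT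
  exact ⟨N, fun j hj => by simp [hN j hj]⟩

theorem EU_mem (i j : ℕ) (a : A) : EU i j a ∈ FF A :=
  ⟨j + 1, fun k hk => by
    rw [EU_apply, Finsupp.single_eq_of_ne (by omega), mul_zero, Finsupp.single_zero]⟩

noncomputable def tr (T : EE A) : A := ∑ᶠ j, T (Finsupp.single j 1) j

theorem tr_eq {T : EE A} {N : ℕ} (hN : ∀ j, N ≤ j → T (Finsupp.single j 1) = 0) :
    tr T = ∑ j ∈ Finset.range N, T (Finsupp.single j 1) j := by
  apply finsum_eq_sum_of_support_subset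
  intro j hj
  by_contra h
  simp only [Finset.coe_range, Set.mem_Iio, not_lt] at h
  exact hj (by simp [hN j h])

theorem tr_add (S : EE A) (hS : S ∈ FF A) (T : EE A) (hT : T ∈ FF A) :
    tr (S + T) = tr S + tr T := by
  obtain ⟨N, hN⟩ := hS
  obtain ⟨K, hK⟩ := hT
  have h1 : ∀ j, max N K ≤ j → S (Finsupp.single j 1) = 0 := fun j hj => hN j (le_of_max_le_left hj)
  have h2 : ∀ j, max N K ≤ j → T (Finsupp.single j 1) = 0 := fun j hj => hK j (le_of_max_le_right hj)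
  rw [tr_eq h1, tr_eq h2, tr_eq (N := max N K) (fun j hj => by simp [h1 j hj, h2 j hj]),
    ← Finset.sum_add_distrib]
  simp

theorem apply_eq {S : EE A} {N : ℕ} (hN : ∀ j, N ≤ j → S (Finsupp.single j 1) = 0) (v : ℕ →₀ A) :
    S v = ∑ i ∈ Finset.range N, v i • S (Finsupp.single i 1) := by
  induction v using Finsupp.induction_linear with
  | zero => simp
  | add f g hf hg => simp [hf, hg, add_smul, Finset.sum_add_distrib]
  | single a b =>
    have : Finsupp.single a b = b • Finsupp.single a (1 : A) := by simp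
    rw [Finset.sum_eq_single a]
    · rw [Finsupp.single_eq_same, ← map_smul, ← this]
    · intro j _ hj; simp [Finsupp.single_eq_of_ne hj]
    · intro ha
      rw [hN a (by simpa using ha), smul_zero]
  
theorem tr_comm (S : EE A) (hS : S ∈ FF A) (T : EE A) (hT : T ∈ FF A) :
    tr (S * T) = tr (T * S) := by
  obtain ⟨N, hN⟩ := hS
  obtain ⟨K, hK⟩ := hT
  have h1 : ∀ j, max N K ≤ j → S (Finsupp.single j 1) = 0 := fun j hj => hN j (le_of_max_le_left hj)
  have h2 : ∀ j, max N K ≤ j → T (Finsupp.single j 1) = 0 := fun j hj => hK j (le_of_max_le_right hj)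
  rw [tr_eq (N := max N K) (fun j hj => by simp [h2 j hj]),
    tr_eq (N := max N K) (fun j hj => by simp [h1 j hj])]
  simp only [Module.End.mul_apply]
  have e1 : ∀ j, S (T (Finsupp.single j 1)) j = ∑ i ∈ Finset.range (max N K),
      T (Finsupp.single j 1) i * S (Finsupp.single i 1) j := fun j => by
    rw [apply_eq h1, Finsupp.finset_sum_apply]; rfl
  have e2 : ∀ j, T (S (Finsupp.single j 1)) j = ∑ i ∈ Finset.range (max N K),
      S (Finsupp.single j 1) i * T (Finsupp.single i 1) j := fun j => by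
    rw [apply_eq h2, Finsupp.finset_sum_apply]; rfl
  simp only [e1, e2]
  rw [Finset.sum_comm]
  exact Finset.sum_congr rfl fun _ _ => Finset.sum_congr rfl fun _ _ => mul_comm _ _

theorem tr_dsum (a : Fin 4 → A) : tr ((ME A).dsum a) = ∑ i, a i := by
  rw [tr_eq (N := 4)]
  · simp [MU.dsum, ME, EU_apply, Fin.sum_univ_four, Finset.sum_range_succ, Finsupp.single_apply]
  · intro j hj
    have h0 : j ≠ 0 := by omega
    have h1 : j ≠ 1 := by omega
    have h2 : j ≠ 2 := by omega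
    have h3 : j ≠ 3 := by omega
    simp [MU.dsum, ME, EU_apply, Fin.sum_univ_four, Finsupp.single_apply, h0, h1, h2, h3]

open TrivSqZeroExt

variable {R : Type} [CommRing R] {φ : R →+* A}

theorem der_one {D : R →+ A} (hD : IsDer φ D) : D 1 = 0 := by
  have := hD.mul 1 1
  simpa using this

noncomputable def MD {D : R →+ A} (hD : IsDer φ D) : MU R (TrivSqZeroExt (EE A) (EE A)) where
  e i j :=
    { toFun := fun r => inl (EU i j (φ r)) + inr (EU i j (D r))
      map_zero' := by simp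
      map_add' := fun a b => by simp only [map_add, inl_add, inr_add]; abel }
  mul i j k l a b := by
    have hm := (ME A).mul i j k l
    simp only [ME] at hm
    ext1
    · split_ifs with h
      · subst h; simp [hm]
      · simp [hm, h]
    · split_ifs with h
      · subst h; simp [hm, hD.mul]
      · simp [hm, h]

theorem MD_fst {D : R →+ A} (hD : IsDer φ D) (i j : ℕ) (r : R) :
    ((MD hD).e i j r).fst = EU i j (φ r) := by simp [MD]

theorem MD_snd {D : R →+ A} (hD : IsDer φ D) (i j : ℕ) (r : R) :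
    ((MD hD).e i j r).snd = EU i j (D r) := by simp [MD]

noncomputable def piD {D : R →+ A} (hD : IsDer φ D) : St R →* EE A where
  toFun g := ((MD hD).sys.lift g : TrivSqZeroExt (EE A) (EE A)).fst
  map_one' := by simp
  map_mul' g h := by simp

noncomputable def dlD {D : R →+ A} (hD : IsDer φ D) (g : St R) : EE A :=
  ((MD hD).sys.lift g : TrivSqZeroExt (EE A) (EE A)).snd

theorem piD_x {D : R →+ A} (hD : IsDer φ D) {i j : ℕ} (h : i ≠ j) (a : R) :
    piD hD ((stSys R).x i j a) = 1 + EU i j (φ a) := by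
  change fst _ = _
  rw [StSys.lift_x _ _ _ h, MU.sys_x _ h, fst_add, fst_one, MD_fst]

theorem dlD_x {D : R →+ A} (hD : IsDer φ D) {i j : ℕ} (h : i ≠ j) (a : R) :
    dlD hD ((stSys R).x i j a) = EU i j (D a) := by
  rw [dlD, StSys.lift_x _ _ _ h, MU.sys_x _ h, snd_add, snd_one, MD_snd, zero_add]

theorem dlD_mul {D : R →+ A} (hD : IsDer φ D) (g h : St R) :
    dlD hD (g * h) = piD hD g * dlD hD h + dlD hD g * piD hD h := by
  simp only [dlD, map_mul, Units.val_mul, snd_mul]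
  rfl

theorem piD_eq {D D' : R →+ A} (hD : IsDer φ D) (hD' : IsDer φ D') : piD hD = piD hD' := by
  ext1 g
  induction g using St_induction with
  | h1 => simp
  | hx i j h a => rw [piD_x _ h, piD_x _ h]
  | hmul g h hg hh => rw [map_mul, map_mul, hg, hh]

theorem id1 {𝓡 : Type*} [Ring 𝓡] (x y : 𝓡) : x * y - 1 = x * (y - 1) + (x - 1) := by noncomm_ring
theorem id2 {𝓡 : Type*} [Ring 𝓡] (x y : 𝓡) : x * y = x * (y - 1) + x := by noncomm_ring
theorem id3 {𝓡 : Type*} [Ring 𝓡] (x : 𝓡) : 1 + x - 1 = x := by noncomm_ring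
theorem id4 {𝓡 : Type*} [Ring 𝓡] : (1 : 𝓡) - 1 = 0 := sub_self _

theorem piD_mem {D : R →+ A} (hD : IsDer φ D) (g : St R) : piD hD g - 1 ∈ FF A := by
  induction g using St_induction with
  | h1 => rw [map_one, (id4 (𝓡 := EE A) : (1 : EE A) - 1 = 0)]; exact (FF A).zero_mem
  | hx i j h a => rw [piD_x _ h, (id3 (𝓡 := EE A) (EU i j (φ a)) : 1 + EU i j (φ a) - 1 = _)]; exact EU_mem _ _ _
  | hmul g h hg hh =>
    have : piD hD g * piD hD h - 1 = piD hD g * (piD hD h - 1) + (piD hD g - 1) := id1 (𝓡 := EE A) _ _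
    rw [map_mul, this]
    exact (FF A).add_mem (FF_mul _ _ hh) hg

theorem dlD_mem {D : R →+ A} (hD : IsDer φ D) (g : St R) : dlD hD g ∈ FF A := by
  induction g using St_induction with
  | h1 => simp [dlD]
  | hx i j h a => rw [dlD_x _ h]; exact EU_mem _ _ _
  | hmul g h hg hh =>
    have : dlD hD g * piD hD h = dlD hD g * (piD hD h - 1) + dlD hD g := id2 (𝓡 := EE A) _ _
    rw [dlD_mul, this]
    exact (FF A).add_mem (FF_mul _ _ hh) ((FF A).add_mem (FF_mul _ _ (piD_mem hD h)) hg)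

theorem piD_dg {D : R →+ A} (hD : IsDer φ D) {g : St R} {a : Fin 4 → Rˣ} (hg : IsDg (MD hD) g a) :
    piD hD g = (ME A).dg (fun i => φ (a i)) := by
  change fst _ = _
  rw [hg]
  simp only [MU.dg, MU.dsum, fst_add, fst_one, Fin.sum_univ_four, MD_fst, Pi.sub_apply,
    Pi.one_apply, map_sub φ, map_one]
  rfl

theorem dlD_dg {D : R →+ A} (hD : IsDer φ D) {g : St R} {a : Fin 4 → Rˣ} (hg : IsDg (MD hD) g a) :
    dlD hD g = (ME A).dsum (fun i => D (a i)) := by
  rw [dlD, hg]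
  simp only [MU.dg, MU.dsum, snd_add, snd_one, Fin.sum_univ_four, MD_snd, Pi.sub_apply,
    Pi.one_apply, map_sub D, der_one hD, sub_zero, zero_add]
  rfl

/-- logarithmic derivative -/
def lg (φ : R →+* A) (D : R →+ A) (u : Rˣ) : A := D u * φ (↑u⁻¹ : R)

theorem lg_inv {D : R →+ A} (hD : IsDer φ D) (u : Rˣ) : lg φ D u⁻¹ = -lg φ D u := by
  have h1 := hD.mul (u : R) (↑u⁻¹ : R)
  rw [Units.mul_inv, der_one hD] at h1
  simp only [lg, inv_inv]
  linear_combination -h1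

theorem value {D₁ D₂ D₃ : R →+ A} (h₁ : IsDer φ D₁) (h₂ : IsDer φ D₂) (h₃ : IsDer φ D₃)
    {g h k : St R} {a b c : Fin 4 → Rˣ}
    (hg : ∀ M : MU R (TrivSqZeroExt (EE A) (EE A)), IsDg M g a)
    (hh : ∀ M : MU R (TrivSqZeroExt (EE A) (EE A)), IsDg M h b)
    (hk : ∀ M : MU R (TrivSqZeroExt (EE A) (EE A)), IsDg M k c) :
    tr (dlD h₁ g * dlD h₂ h * dlD h₃ k * piD h₁ (g * h * k)⁻¹) =
      ∑ i, lg φ D₁ (a i) * lg φ D₂ (b i) * lg φ D₃ (c i) := by
  rw [dlD_dg h₁ (hg _), dlD_dg h₂ (hh _), dlD_dg h₃ (hk _),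
    piD_dg h₁ (((hg _).mul (hh _)).mul (hk _)).inv, MU.dsum_mul, MU.dsum_mul, MU.dsum_mul_dg, tr_dsum]
  refine Finset.sum_congr rfl fun i _ => ?_
  simp only [lg, Pi.mul_apply, Pi.inv_apply, mul_inv, Units.val_mul, map_mul]
  ring

end Trace

open Trace in
theorem exists_trace_cocycle {R A : Type} [CommRing R] [CommRing A] (φ : R →+* A)
    (D₁ D₂ D₃ : R →+ A) (h₁ : IsDer φ D₁) (h₂ : IsDer φ D₂) (h₃ : IsDer φ D₃) :
    ∃ c : St R → St R → St R → A, IsCoc3 c ∧ ∀ a b e : Rˣ,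
      alt3 c (g1 (stSys R) a) (g2 (stSys R) b) (g3 (stSys R) e) =
        4 * φ ((a⁻¹ * b⁻¹ * e⁻¹ : Rˣ) : R) * det3 D₁ D₂ D₃ (a : R) (b : R) (e : R) := by
  refine ⟨fun g h k => tr (dlD h₁ g * dlD h₂ h * dlD h₃ k * piD h₁ (g * h * k)⁻¹), ?_, ?_⟩
  · refine coc_of_trace (FF A) FF_mul tr tr_add tr_comm (piD h₁) (piD_mem h₁) _ _ _
      (dlD_mul h₁) ?_ ?_ (dlD_mem h₃)
    · rw [piD_eq h₁ h₂]; exact dlD_mul h₂
    · rw [piD_eq h₁ h₃]; exact dlD_mul h₃
  · intro a b e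
    have ha := fun M : MU R (TrivSqZeroExt (EE A) (EE A)) => isDg_g1 M a
    have hb := fun M : MU R (TrivSqZeroExt (EE A) (EE A)) => isDg_g2 M b
    have he := fun M : MU R (TrivSqZeroExt (EE A) (EE A)) => isDg_g3 M e
    simp only [alt3]
    rw [value h₁ h₂ h₃ ha hb he, value h₁ h₂ h₃ hb ha he, value h₁ h₂ h₃ ha he hb,
      value h₁ h₂ h₃ he hb ha, value h₁ h₂ h₃ hb he ha, value h₁ h₂ h₃ he ha hb]
    simp only [Fin.sum_univ_four, Matrix.cons_val_zero, Matrix.cons_val_one, Matrix.cons_val,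
      lg_inv h₁, lg_inv h₂, lg_inv h₃]
    simp only [lg, det3, Units.val_mul, map_mul]
    ring

end Crest.Agent.R171
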