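import Crest.Agent.R171.Tau
import Crest.Agent.R171.Bridge
import Crest.Agent.R171.Trace
import Crest.Agent.R171.Ring

/-! # R171-Main: assembling the counterexample -/

set_option autoImplicit false

namespace Crest.Agent.R171

open Crest.AlgebraR.Steinberg

theorem stMap_h {R R' : Type} [CommRing R] [CommRing R'] (φ : R →+* R') (i j : ℕ) (u : Rˣ) :
    stMap φ ((stSys R).h i j u) = (stSys R').h i j (Units.map φ.toMonoidHom u) := by
  simp [StSys.h, StSys.w, stMap_x]

theorem IsDer.one {R A : Type*} [CommRing R] [CommRing A] {φ : R →+* A} {D : R →+ A}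
    (h : IsDer φ D) : D 1 = 0 := by
  have := h.mul 1 1
  simp only [mul_one, map_one, one_mul] at this
  simpa using this

theorem main : ∃ (A : Type) (_ : CommRing A) (_ : IsDomain A) (_ : IsRegularLocalRing A),
      ringKrullDim A = 2 ∧ CharZero A ∧ (5 : A) ∈ IsLocalRing.maximalIdeal A ^ 2 ∧
        ¬ Function.Injective (H3map (algebraMap A (FractionRing A))).hom := by
  obtain ⟨R, i1, i2, i3, hdim, hchar, h5, t, x, y, hx, hy, hx0, hy0, hrel, A, iA, φ, D₁, D₂, D₃,
    d₁, d₂, d₃, hA5, hxy, t1, x1, y1, t2, x2, y2, t3, x3, y3⟩ := exists_ring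
  refine ⟨R, i1, i2, i3, hdim, hchar, h5, ?_⟩
  have hu : ∀ z ∈ IsLocalRing.maximalIdeal R, IsUnit (1 - z) := fun z hz =>
    IsLocalRing.isUnit_one_sub_self_of_mem_nonunits z hz
  obtain ⟨P, hP⟩ := hu (x * y) (Ideal.mul_mem_right _ _ hx)
  obtain ⟨Q, hQ⟩ := hu y hy
  obtain ⟨S, hS⟩ := hu (x ^ 5) (Ideal.pow_mem_of_mem _ hx 5 (by norm_num))
  obtain ⟨W, hW⟩ := hu (t * x * x * x * x * y * y * y * y) (Ideal.mul_mem_left _ _ hy)
  set V : Rˣ := -W * P⁻¹ with hVdef
  have hV : (V : R) * (1 - x * y) = t * x * x * x * x * y * y * y * y - 1 := by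
    rw [← hP, hVdef]; simp [hW]
  obtain ⟨W₁, hW₁⟩ := hu (x * V) (Ideal.mul_mem_right _ _ hx)
  set V₁ : Rˣ := -W₁ * Q⁻¹ with hV₁def
  have hV₁ : (V₁ : R) * (1 - y) = x * V - 1 := by
    rw [← hQ, hV₁def]; simp [hW₁]
  obtain ⟨U, hU⟩ := hu (y * V₁) (Ideal.mul_mem_right _ _ hy)
  obtain ⟨T, hT⟩ := hu (x * y * V) (Ideal.mul_mem_right _ _ (Ideal.mul_mem_right _ _ hx))
  clear_value V V₁
  obtain ⟨c, hc, hcv⟩ := exists_trace_cocycle φ D₁ D₂ D₃ d₁ d₂ d₃
  refine bridge (stMap (algebraMap R (FractionRing R))) (trivialHom _) (fun _ => rfl)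
    (g1 (stSys R) V) (g2 (stSys R) V₁) (g3 (stSys R) U) (commute_g12 _ _) (commute_g13 _ _)
    (commute_g23 _ _) 2 A c hc ?_ ?_
  · rw [hcv]
    intro h0
    -- derivation computations
    have key : ∀ D : R →+ A, IsDer φ D →
        D V * (1 - φ x * φ y) = φ V * (φ x * D y + D x * φ y) + (D t * φ x ^ 4 * φ y ^ 4
          + 4 * φ t * φ x ^ 3 * φ y ^ 4 * D x + 4 * φ t * φ x ^ 4 * φ y ^ 3 * D y) ∧
        D V₁ * (1 - φ y) = φ V₁ * D y + φ x * D V + D x * φ V ∧
        D U = -(φ y * D V₁ + D y * φ V₁) := by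
      intro D hD
      have e1 := congrArg D hV
      have e2 := congrArg D hV₁
      have e3 := congrArg D hU
      simp only [hD.mul, map_sub, hD.one, map_mul, map_one] at e1 e2 e3
      refine ⟨?_, ?_, ?_⟩
      · linear_combination e1
      · linear_combination e2
      · linear_combination e3
    obtain ⟨a1, b1, c1⟩ := key D₁ d₁
    obtain ⟨a2, b2, c2⟩ := key D₂ d₂
    obtain ⟨a3, b3, c3⟩ := key D₃ d₃
    simp only [t1, x1, y1, t2, x2, y2, t3, x3, y3] at a1 b1 c1 a2 b2 c2 a3 b3 c3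
    have hdet : det3 D₁ D₂ D₃ (V : R) (V₁ : R) (U : R) * (1 - φ y) * (1 - φ x * φ y) =
        -(φ V * φ V₁) * (φ x ^ 4 * φ y ^ 4) := by
      simp only [det3, c1, c2, c3]
      linear_combination (-(φ V₁) * D₁ V * (1 - φ x * φ y)) * b2
        + (φ V₁ * D₂ V * (1 - φ x * φ y)) * b1 - (φ V * φ V₁) * a1
    have hunit : IsUnit (φ ((V⁻¹ * V₁⁻¹ * U⁻¹ : Rˣ) : R)) := (Units.isUnit _).map φ
    have hunit2 : IsUnit (-(φ V * φ V₁)) := (((Units.isUnit V).map φ).mul
      ((Units.isUnit V₁).map φ)).neg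
    have hd0 : det3 D₁ D₂ D₃ (V : R) (V₁ : R) (U : R) = 0 := by
      apply hunit.mul_right_eq_zero.1
      rw [zsmul_eq_mul] at h0
      push_cast at h0 ⊢
      linear_combination 2 * h0 - 3 * (φ (↑V⁻¹ * ↑V₁⁻¹ * ↑U⁻¹) *
        det3 D₁ D₂ D₃ (V : R) (V₁ : R) (U : R)) * hA5
    rw [hd0, zero_mul, zero_mul] at hdet
    exact hxy (hunit2.mul_right_eq_zero.1 hdet.symm)
  · intro N _ e he
    set F := FractionRing R
    set ι := algebraMap R F with hι
    have hinj : Function.Injective ι := IsFractionRing.injective R F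
    let X : Fˣ := Units.mk0 (ι x) (fun h => hx0 (hinj (by simpa using h)))
    let Y : Fˣ := Units.mk0 (ι y) (fun h => hy0 (hinj (by simpa using h)))
    have hX : (X : F) = ι x := rfl
    have hY : (Y : F) = ι y := rfl
    let m : Rˣ →* Fˣ := Units.map ι.toMonoidHom
    have hm : ∀ u : Rˣ, (m u : F) = ι u := fun _ => rfl
    have := tau_vanish he X Y (m V) (m V₁) (m U) (m P) (m Q) (m T) (m S)
      (by rw [hY, hm, hm, hU, ← map_mul, ← map_add]; simp)
      (by rw [hY, hm, hQ, ← map_add]; simp)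
      (by rw [← map_mul]; congr 1; ext; rw [Units.val_mul, hU, hQ, hT]; linear_combination (-y) * hV₁)
      (by rw [hX, hY, hm, hm, hT, ← map_mul, ← map_mul, ← map_add]; simp)
      (by rw [hX, hY, hm, hP, ← map_mul, ← map_add]; simp)
      (by
        rw [← map_mul, ← map_pow]; congr 1; ext
        rw [Units.val_mul, Units.val_pow_eq_pow_val, hT, hP, hS]
        linear_combination (-x * y) * hV + hrel)
      (by rw [hX, hm, hS, ← map_pow, ← map_add]; simp)
    simpa only [tau, g1, g2, g3, map_mul, stMap_h] using this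

end Crest.Agent.R171
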