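import Crest.Agent.R171.Defs

/-! # R171-Sys: calculus in Steinberg systems -/

set_option autoImplicit false

namespace Crest.Agent.R171

open Crest.AlgebraR.Steinberg

/-- there is always a fifth index -/
def Spare (I : Type*) : Prop := ∀ i j k l : I, ∃ n, n ≠ i ∧ n ≠ j ∧ n ≠ k ∧ n ≠ l

theorem spare_nat : Spare ℕ := fun i j k l =>
  ⟨i + j + k + l + 1, by omega, by omega, by omega, by omega⟩

theorem spare_fin5 : Spare (Fin 5) := by
  unfold Spare; decide

namespace StSys
variable {I R G : Type*} [CommRing R] [Group G] (S : StSys I R G)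

theorem x_zero {i j : I} (hij : i ≠ j) : S.x i j 0 = 1 := by
  have := S.add i j hij 0 0
  simpa using this

theorem x_inv {i j : I} (hij : i ≠ j) (a : R) : (S.x i j a)⁻¹ = S.x i j (-a) := by
  rw [inv_eq_iff_mul_eq_one, S.add i j hij, add_neg_cancel, S.x_zero hij]

theorem conj_comm {i j k l : I} (hij : i ≠ j) (hkl : k ≠ l) (hjk : j ≠ k) (hil : i ≠ l) (a b : R) :
    MulAut.conj (S.x i j a) (S.x k l b) = S.x k l b := by
  rw [MulAut.conj_apply, (S.comm i j k l hij hkl hjk hil a b).eq, mul_inv_cancel_right]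

theorem conj_left {i j l : I} (hij : i ≠ j) (hjl : j ≠ l) (hil : i ≠ l) (a b : R) :
    MulAut.conj (S.x i j a) (S.x j l b) = S.x i l (a * b) * S.x j l b := by
  rw [MulAut.conj_apply, ← S.mul i j l hij hjl hil]; group

theorem conj_right {i j l : I} (hij : i ≠ j) (hjl : j ≠ l) (hil : i ≠ l) (a b : R) :
    MulAut.conj (S.x j l b) (S.x i j a) = S.x i l (-(a * b)) * S.x i j a := by
  rw [MulAut.conj_apply, ← S.x_inv hil, ← S.mul i j l hij hjl hil]
  have h1 := (S.comm i l i j hil hij hil.symm hij (a * b) a)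
  rw [← S.mul i j l hij hjl hil] at h1
  group

/-- `s` acts on the generators like a monomial matrix -/
def Acts (s : G) (σ : I → I) (d : I → Rˣ) : Prop :=
  ∀ k l, k ≠ l → ∀ r : R, MulAut.conj s (S.x k l r) = S.x (σ k) (σ l) (d k * r * ↑(d l)⁻¹)

/-- `s` acts on the generators like a diagonal matrix -/
def Diag (s : G) (d : I → Rˣ) : Prop :=
  ∀ k l, k ≠ l → ∀ r : R, MulAut.conj s (S.x k l r) = S.x k l (d k * r * ↑(d l)⁻¹)

section w
variable [DecidableEq I]

def dw (i j : I) (u : Rˣ) : I → Rˣ := fun k => if k = j then u else if k = i then -u⁻¹ else 1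

theorem w_col {i j n : I} (hij : i ≠ j) (hni : n ≠ i) (hnj : n ≠ j) (u : Rˣ) (k : I) (hk : k ≠ n)
    (r : R) : MulAut.conj (S.w i j u) (S.x k n r) = S.x (Equiv.swap i j k) n (dw i j u k * r) := by
  simp only [w, map_mul, MulAut.mul_apply]
  by_cases hki : k = i
  · subst hki
    rw [S.conj_comm hij hk hij.symm hk, S.conj_left hij.symm hk hnj.symm, map_mul,
      S.conj_left hij hnj.symm hk, S.conj_comm hij hk hij.symm hk, mul_assoc,
      (S.comm j n k n hnj.symm hk hni hnj.symm _ _).eq, ← mul_assoc, S.add k n hk]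
    simp [dw, hij, S.x_zero hk]
  · by_cases hkj : k = j
    · subst hkj
      rw [S.conj_left hij hk hni.symm, map_mul, S.conj_left hij.symm hni.symm hk,
        S.conj_comm hij.symm hk hij hk, mul_assoc,
        (S.comm i n k n hni.symm hk hnj hni.symm _ _).eq, ← mul_assoc, S.add k n hk]
      simp [dw, S.x_zero hk, S.conj_comm hij hni.symm hij.symm hni.symm]
    · rw [S.conj_comm hij hk (Ne.symm hkj) hni.symm, S.conj_comm hij.symm hk (Ne.symm hki) hnj.symm,
        S.conj_comm hij hk (Ne.symm hkj) hni.symm]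
      simp [dw, hki, hkj, Equiv.swap_apply_of_ne_of_ne hki hkj]

theorem w_row {i j n : I} (hij : i ≠ j) (hni : n ≠ i) (hnj : n ≠ j) (u : Rˣ) (l : I) (hl : n ≠ l)
    (r : R) :
    MulAut.conj (S.w i j u) (S.x n l r) = S.x n (Equiv.swap i j l) (r * ↑(dw i j u l)⁻¹) := by
  simp only [w, map_mul, MulAut.mul_apply]
  by_cases hli : l = i
  · subst hli
    rw [S.conj_right hl hij hnj, map_mul, S.conj_right hnj hij.symm hl,
      S.conj_comm hij.symm hl hl.symm hij.symm, mul_assoc,
      (S.comm n j n l hnj hl hnj.symm hl _ _).eq, ← mul_assoc, S.add n l hl]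
    simp [dw, hij, S.x_zero hl, S.conj_comm hij hnj hnj.symm hij]
  · by_cases hlj : l = j
    · subst hlj
      rw [S.conj_comm hij hl hl.symm hij, S.conj_right hl hij.symm hni, map_mul,
        S.conj_right hni hij hl, S.conj_comm hij hl hl.symm hij, mul_assoc,
        (S.comm n i n l hni hl hni.symm hl _ _).eq, ← mul_assoc, S.add n l hl]
      simp [dw, S.x_zero hl]
    · rw [S.conj_comm hij hl hnj.symm (Ne.symm hli), S.conj_comm hij.symm hl hni.symm (Ne.symm hlj),
        S.conj_comm hij hl hnj.symm (Ne.symm hli)]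
      simp [dw, hli, hlj, Equiv.swap_apply_of_ne_of_ne hli hlj]

theorem acts_w (hI : Spare I) {i j : I} (hij : i ≠ j) (u : Rˣ) :
    S.Acts (S.w i j u) (Equiv.swap i j) (dw i j u) := by
  intro k l hkl r
  obtain ⟨n, hni, hnj, hnk, hnl⟩ := hI i j k l
  have hn : Equiv.swap i j n = n := Equiv.swap_apply_of_ne_of_ne hni hnj
  have h1 : Equiv.swap i j k ≠ n := by
    rw [← hn]; exact fun h => hnk ((Equiv.swap i j).injective h).symm
  have h2 : n ≠ Equiv.swap i j l := by
    rw [← hn]; exact fun h => hnl ((Equiv.swap i j).injective h)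
  have h3 : Equiv.swap i j k ≠ Equiv.swap i j l := fun h => hkl ((Equiv.swap i j).injective h)
  have := S.mul k n l hnk.symm hnl hkl r 1
  rw [mul_one] at this
  rw [← this]
  simp only [map_mul, map_inv]
  rw [S.w_col hij hni hnj u k hnk.symm, S.w_row hij hni hnj u l hnl, S.mul _ _ _ h1 h2 h3]
  simp

/-- the cocharacter `e_i - e_j` -/
def e (i j : I) : I → ℤ := fun k => if k = i then 1 else if k = j then -1 else 0

theorem diag_h (hI : Spare I) {i j : I} (hij : i ≠ j) (u : Rˣ) :
    S.Diag (S.h i j u) (fun k => u ^ e i j k) := by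
  intro k l hkl r
  have key : ∀ k, dw i j u (Equiv.swap i j k) * dw i j (-1) k = u ^ e i j k := by
    intro k
    by_cases hki : k = i
    · subst hki; simp [dw, e, hij]
    · by_cases hkj : k = j
      · subst hkj; simp [dw, e, hij, hki]
      · simp [dw, e, hki, hkj, Equiv.swap_apply_of_ne_of_ne hki hkj]
  simp only [h, map_mul, MulAut.mul_apply]
  rw [S.acts_w hI hij (-1) k l hkl, S.acts_w hI hij u _ _
    (fun h => hkl ((Equiv.swap i j).injective h))]
  simp only [Equiv.swap_apply_self, ← key]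
  congr 1
  simp only [mul_inv_rev, Units.val_mul]
  ring

theorem h_mul_h (hI : Spare I) {i j : I} (hij : i ≠ j) (a b : Rˣ) (hab : (a : R) + b = 1) :
    S.h i j a * S.h i j b = S.h i j (a * b) := by
  have hw : ∀ (u : Rˣ) (r : R), S.w i j u * S.x j i r = S.x i j (-(u * u * r)) * S.w i j u := by
    intro u r
    have := S.acts_w hI hij u j i hij.symm r
    rw [MulAut.conj_apply, mul_inv_eq_iff_eq_mul] at this
    rw [this]
    simp [dw, hij, mul_comm, mul_left_comm]
  have hw' : ∀ (u : Rˣ) (r : R),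
      S.w i j u * S.x i j r = S.x j i (-(↑u⁻¹ * ↑u⁻¹ * r)) * S.w i j u := by
    intro u r
    have := S.acts_w hI hij u i j hij r
    rw [MulAut.conj_apply, mul_inv_eq_iff_eq_mul] at this
    rw [this]
    simp [dw, hij, mul_comm, mul_left_comm]
  have hm1 : S.w i j (-1) = S.x j i 1 * S.x i j (-1) * S.x j i 1 := by
    have h1 := hw' (-1) (-1)
    have h2 := hw (-1) 1
    have h3 : S.w i j (-1) = S.x i j (-1) * S.x j i 1 * S.x i j (-1) := by simp [w]
    have h4 : S.w i j (-1) * S.w i j (-1) =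
        S.x j i 1 * S.x i j (-1) * S.x j i 1 * S.w i j (-1) := by
      conv_lhs => rw [h3, ← h3]
      calc S.w i j (-1) * S.w i j (-1)
          = S.w i j (-1) * (S.x i j (-1) * S.x j i 1 * S.x i j (-1)) := by rw [← h3]
        _ = _ := by
          rw [← mul_assoc, ← mul_assoc, h1, mul_assoc _ (S.w i j (-1)), h2, ← mul_assoc,
            mul_assoc _ (S.w i j (-1)), h1]
          simp [mul_assoc]
    exact mul_right_cancel h4
  have hb : S.x j i 1 * S.w i j b = S.w i j b * S.x i j (-(b * b)) := by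
    rw [hw']; simp [mul_assoc]
  have key : S.w i j a * S.w i j (-1) * S.w i j b = S.w i j (a * b) := by
    rw [hm1, ← mul_assoc, ← mul_assoc, hw, mul_assoc _ (S.x j i 1), hb]
    simp only [w, mul_assoc]
    simp only [← mul_assoc]
    rw [S.add i j hij, mul_assoc _ (S.x i j a), S.add i j hij, mul_assoc _ (S.x i j (a + -1)),
      S.add i j hij, mul_assoc _ (S.x i j b), S.add i j hij]
    have e0 : (a : R) + -1 + b = 0 := by linear_combination hab
    rw [e0, S.x_zero hij, mul_one, mul_assoc _ (S.x j i (-↑a⁻¹)), S.add j i hij.symm]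
    have ha := a.mul_inv
    have hb := b.mul_inv
    congr 2
    · congr 1
      rw [Units.val_mul]; linear_combination (-(a : R)) * hab
    · congr 1
      rw [mul_inv_rev, Units.val_mul]
      linear_combination (-(↑a⁻¹ * ↑b⁻¹ : R)) * hab + (↑b⁻¹ : R) * ha + (↑a⁻¹ : R) * hb
    · rw [Units.val_mul]; linear_combination (-(b : R)) * hab
  rw [h, h, h, ← mul_assoc, key]

theorem commute_h_h (hI : Spare I) {i j : I} (hij : i ≠ j) (a b : Rˣ) (hab : (a : R) + b = 1) :
    Commute (S.h i j a) (S.h i j b) := by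
  rw [Commute, SemiconjBy, S.h_mul_h hI hij a b hab, S.h_mul_h hI hij b a (by rw [add_comm, hab]),
    mul_comm]

end w

variable {S}

theorem Diag.mul {s t : G} {d d' : I → Rˣ} (hs : S.Diag s d) (ht : S.Diag t d') :
    S.Diag (s * t) (fun k => d k * d' k) := by
  intro k l hkl r
  rw [map_mul, MulAut.mul_apply, ht k l hkl, hs _ _ hkl]
  simp only [mul_inv_rev, Units.val_mul]
  congr 1; ring

theorem Diag.inv {s : G} {d : I → Rˣ} (hs : S.Diag s d) : S.Diag s⁻¹ (fun k => (d k)⁻¹) := by
  intro k l hkl r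
  rw [map_inv, MulAut.inv_def, MulEquiv.symm_apply_eq, hs _ _ hkl]
  simp only [inv_inv]
  congr 1
  have h1 := (d k).mul_inv
  have h2 := (d l).mul_inv
  linear_combination (-r) * h2 - (r * ↑(d l) * ↑(d l)⁻¹) * h1

theorem Diag.congr {s : G} {d d' : I → Rˣ} (hs : S.Diag s d) (h : ∀ k, d k = d' k) :
    S.Diag s d' := by
  rwa [← funext h]

theorem Diag.commute_x {s : G} {d : I → Rˣ} (hs : S.Diag s d) {k l : I} (hkl : k ≠ l)
    (hd : d k = d l) (r : R) : Commute s (S.x k l r) := by
  have := hs k l hkl r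
  rw [MulAut.conj_apply, mul_inv_eq_iff_eq_mul, hd, mul_comm (d l : R), mul_assoc, Units.mul_inv,
    mul_one] at this
  exact this

theorem Diag.commute_w {s : G} {d : I → Rˣ} (hs : S.Diag s d) {k l : I} (hkl : k ≠ l)
    (hd : d k = d l) (u : Rˣ) : Commute s (S.w k l u) :=
  ((hs.commute_x hkl hd _).mul_right (hs.commute_x hkl.symm hd.symm _)).mul_right
    (hs.commute_x hkl hd _)

theorem Diag.commute_h {s : G} {d : I → Rˣ} (hs : S.Diag s d) {k l : I} (hkl : k ≠ l)
    (hd : d k = d l) (u : Rˣ) : Commute s (S.h k l u) :=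
  (hs.commute_w hkl hd _).mul_right (hs.commute_w hkl hd _)

theorem Diag.conj {s g : G} {σ : Equiv.Perm I} {d c : I → Rˣ} (hg : S.Diag g d)
    (hs : S.Acts s σ c) : S.Diag (s * g * s⁻¹) (fun k => d (σ.symm k)) := by
  intro k l hkl r
  obtain ⟨k, rfl⟩ := σ.surjective k
  obtain ⟨l, rfl⟩ := σ.surjective l
  have hkl' : k ≠ l := fun h => hkl (by rw [h])
  have h1 := hs k l hkl' (↑(c k)⁻¹ * r * c l)
  have e1 : (c k : R) * (↑(c k)⁻¹ * r * c l) * ↑(c l)⁻¹ = r := by
    have h1 := (c k).mul_inv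
    have h2 := (c l).mul_inv
    linear_combination r * h2 + (r * ↑(c l) * ↑(c l)⁻¹) * h1
  rw [e1] at h1
  rw [← h1, map_mul, map_mul, MulAut.mul_apply, MulAut.mul_apply, map_inv, MulAut.inv_def,
    MulEquiv.symm_apply_apply, hg k l hkl', hs _ _ hkl']
  simp only [Equiv.symm_apply_apply]
  congr 1
  have h1 := (c k).mul_inv
  have h2 := (c l).mul_inv
  linear_combination (↑(d k) * r * ↑(d l)⁻¹) * h2 + (↑(d k) * r * ↑(d l)⁻¹ * ↑(c l) * ↑(c l)⁻¹) * h1

/-- restriction of the index set -/
def comap (S : StSys I R G) {J : Type*} (ι : J → I) (hι : Function.Injective ι) : StSys J R G where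
  x i j := S.x (ι i) (ι j)
  add i j hij := S.add _ _ (hι.ne hij)
  comm i j k l h1 h2 h3 h4 := S.comm _ _ _ _ (hι.ne h1) (hι.ne h2) (hι.ne h3) (hι.ne h4)
  mul i j l h1 h2 h3 := S.mul _ _ _ (hι.ne h1) (hι.ne h2) (hι.ne h3)

end StSys

open StSys

theorem Diag_central {R : Type*} [CommRing R] {g g' : St R} {d : ℕ → Rˣ}
    (hg : (stSys R).Diag g d) (hg' : (stSys R).Diag g' d) (z : St R) : Commute (g⁻¹ * g') z := by
  have h := hg.inv.mul hg'
  induction z using St_induction with
  | h1 => exact Commute.one_right _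
  | hx i j hij a => exact h.commute_x hij (by simp) a
  | hmul a b ha hb => exact ha.mul_right hb

theorem Diag_commute {R : Type*} [CommRing R] {g g' z : St R} {d : ℕ → Rˣ}
    (hg : (stSys R).Diag g d) (hg' : (stSys R).Diag g' d) (hz : Commute z g) : Commute z g' := by
  have : g' = g * (g⁻¹ * g') := by group
  rw [this]
  exact hz.mul_right (Diag_central hg hg' z).symm

theorem diag_hh {R : Type*} [CommRing R] {i j k l : ℕ} (hij : i ≠ j) (hkl : k ≠ l) (a : Rˣ) :
    (stSys R).Diag ((stSys R).h i j a * (stSys R).h k l a) (fun n => a ^ (e i j n + e k l n)) :=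
  (((stSys R).diag_h spare_nat hij a).mul ((stSys R).diag_h spare_nat hkl a)).congr
    (fun n => by rw [zpow_add])

def lam1 (n : ℕ) : ℤ := e 0 2 n + e 1 3 n
def lam2 (n : ℕ) : ℤ := e 0 1 n + e 2 3 n
def lam3 (n : ℕ) : ℤ := e 0 1 n + e 3 2 n

theorem diag_g1 {R : Type*} [CommRing R] (a : Rˣ) :
    (stSys R).Diag (g1 (stSys R) a) (fun n => a ^ lam1 n) := diag_hh (by decide) (by decide) a
theorem diag_g2 {R : Type*} [CommRing R] (a : Rˣ) :
    (stSys R).Diag (g2 (stSys R) a) (fun n => a ^ lam2 n) := diag_hh (by decide) (by decide) a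
theorem diag_g3 {R : Type*} [CommRing R] (a : Rˣ) :
    (stSys R).Diag (g3 (stSys R) a) (fun n => a ^ lam3 n) := diag_hh (by decide) (by decide) a

theorem commute_g12 {R : Type} [CommRing R] (a b : Rˣ) :
    Commute (g1 (stSys R) a) (g2 (stSys R) b) :=
  ((diag_g1 a).commute_h (by decide) (by simp [lam1, e]) b).mul_right
    ((diag_g1 a).commute_h (by decide) (by simp [lam1, e]) b)

theorem commute_g13 {R : Type} [CommRing R] (a b : Rˣ) :
    Commute (g1 (stSys R) a) (g3 (stSys R) b) :=
  ((diag_g1 a).commute_h (by decide) (by simp [lam1, e]) b).mul_right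
    ((diag_g1 a).commute_h (by decide) (by simp [lam1, e]) b)

theorem commute_g23 {R : Type} [CommRing R] (a b : Rˣ) :
    Commute (g2 (stSys R) a) (g3 (stSys R) b) := by
  have h : (stSys R).Diag ((stSys R).h 0 2 b * (stSys R).h 3 1 b) (fun n => b ^ lam3 n) :=
    (diag_hh (by decide) (by decide) b).congr (fun n => by
      congr 1; simp only [lam3, e]; split_ifs <;> omega)
  refine Diag_commute h (diag_g3 b) ?_
  exact ((diag_g2 a).commute_h (by decide) (by simp [lam2, e]) b).mul_right
    ((diag_g2 a).commute_h (by decide) (by simp [lam2, e]) b)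

end Crest.Agent.R171
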