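import Crest.Agent.R171.Coc

/-! # R171-Tau: the triple symbol -/

set_option autoImplicit false

namespace Crest.Agent.R171

open Crest.AlgebraR.Steinberg StSys

variable {M : Type*} {R : Type} [AddCommGroup M] [CommRing R] {c : St R → St R → St R → M}

theorem alt3_congr3 (hc : IsCoc3 c) {g g' h h' k k' : St R} {d₁ d₂ d₃ : ℕ → Rˣ}
    (hg : (stSys R).Diag g d₁) (hg' : (stSys R).Diag g' d₁)
    (hh : (stSys R).Diag h d₂) (hh' : (stSys R).Diag h' d₂)
    (hk : (stSys R).Diag k d₃) (hk' : (stSys R).Diag k' d₃)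
    (h1 : Commute g h) (h2 : Commute g k) (h3 : Commute h k) :
    alt3 c g' h' k' = alt3 c g h k := by
  have a1 : Commute g h' := Diag_commute hh hh' h1
  have a2 : Commute g k' := Diag_commute hk hk' h2
  have a3 : Commute h k' := Diag_commute hk hk' h3
  have a4 : Commute h' k' := (Diag_commute hh hh' a3.symm).symm
  rw [alt3_congr hc hg hg' a1 a2 a4, ← alt3_cyc, alt3_congr hc hh hh' a3 h1.symm a2.symm,
    ← alt3_cyc, alt3_congr hc hk hk' h2.symm h3.symm h1, ← alt3_cyc]

/-- the triple symbol -/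
def tau (c : St R → St R → St R → M) (a b e : Rˣ) : M :=
  alt3 c (g1 (stSys R) a) (g2 (stSys R) b) (g3 (stSys R) e)

theorem tau_mul1 (hc : IsCoc3 c) (a a' b e : Rˣ) :
    tau c (a * a') b e = tau c a b e + tau c a' b e := by
  have h := ((diag_g1 a).mul (diag_g1 a')).congr (d' := fun n => (a * a') ^ lam1 n)
    (fun n => by rw [mul_zpow])
  simp only [tau]
  rw [alt3_congr hc h (diag_g1 (a * a')) ((commute_g12 _ _).mul_left (commute_g12 _ _))
    ((commute_g13 _ _).mul_left (commute_g13 _ _)) (commute_g23 _ _),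
    alt3_mul hc (commute_g12 _ _) (commute_g12 _ _) (commute_g13 _ _) (commute_g13 _ _)
      (commute_g23 _ _)]

theorem commute_conj {G : Type*} [Group G] {g h : G} (s : G) (hgh : Commute g h) :
    Commute (s * g * s⁻¹) (s * h * s⁻¹) := hgh.map (MulAut.conj s)

theorem tau_swap12 (hc : IsCoc3 c) (a b e : Rˣ) : tau c b a e = -tau c a b e := by
  have hs := (stSys R).acts_w spare_nat (show (1 : ℕ) ≠ 2 by decide) 1
  have c3 : Commute ((stSys R).w 1 2 1) (g3 (stSys R) e) :=
    ((diag_g3 e).commute_w (by decide) (by simp [lam3, StSys.e]) 1).symm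
  have d1 := ((diag_g1 a).conj hs).congr (d' := fun n => a ^ lam2 n) (fun n => by
    congr 1
    simp only [lam1, lam2, StSys.e, Equiv.symm_swap, Equiv.swap_apply_def]
    split_ifs <;> first | omega | contradiction)
  have d2 := ((diag_g2 b).conj hs).congr (d' := fun n => b ^ lam1 n) (fun n => by
    congr 1
    simp only [lam1, lam2, StSys.e, Equiv.symm_swap, Equiv.swap_apply_def]
    split_ifs <;> first | omega | contradiction)
  simp only [tau]
  rw [alt3_swap12, ← alt3_conj hc (commute_g12 a b) c3 (commute_g13 _ _) (commute_g23 _ _),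
    alt3_congr3 hc (diag_g2 a) d1 (diag_g1 b) d2 (diag_g3 e) (diag_g3 e) (commute_g12 _ _).symm
      (commute_g23 _ _) (commute_g13 _ _)]

theorem tau_swap23 (hc : IsCoc3 c) (a b e : Rˣ) : tau c a e b = -tau c a b e := by
  have hs := (stSys R).acts_w spare_nat (show (2 : ℕ) ≠ 3 by decide) 1
  have c3 : Commute ((stSys R).w 2 3 1) (g1 (stSys R) a) :=
    ((diag_g1 a).commute_w (by decide) (by simp [lam1, StSys.e]) 1).symm
  have d1 := ((diag_g2 b).conj hs).congr (d' := fun n => b ^ lam3 n) (fun n => by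
    congr 1
    simp only [lam3, lam2, StSys.e, Equiv.symm_swap, Equiv.swap_apply_def]
    split_ifs <;> first | omega | contradiction)
  have d2 := ((diag_g3 e).conj hs).congr (d' := fun n => e ^ lam2 n) (fun n => by
    congr 1
    simp only [lam3, lam2, StSys.e, Equiv.symm_swap, Equiv.swap_apply_def]
    split_ifs <;> first | omega | contradiction)
  simp only [tau]
  rw [← alt3_cyc c (g1 _ a) (g2 _ b),
    ← alt3_conj hc (commute_g23 b e) c3 (commute_g12 _ _).symm (commute_g13 _ _).symm,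
    alt3_congr3 hc (diag_g3 b) d1 (diag_g2 e) d2 (diag_g1 a) (diag_g1 a) (commute_g23 _ _).symm
      (commute_g13 _ _).symm (commute_g12 _ _).symm, ← alt3_swap12, alt3_cyc, alt3_cyc]

theorem tau_steinberg (hc : IsCoc3 c) (a b e : Rˣ) (hab : (a : R) + b = 1) : tau c a b e = 0 := by
  set S := stSys R with hS
  -- enlarge the third element
  let S4 := S.comap (fun n : ℕ => n + 4) (fun _ _ h => by simpa using h)
  have x1 : ∀ i j, i ≠ j → ∀ r, Commute (S4.x i j r) (g1 S a) := fun i j hij r =>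
    ((diag_g1 a).commute_x (by simpa using hij) (by simp [lam1, StSys.e]) r).symm
  have x2 : ∀ i j, i ≠ j → ∀ r, Commute (S4.x i j r) (g2 S b) := fun i j hij r =>
    ((diag_g2 b).commute_x (by simpa using hij) (by simp [lam2, StSys.e]) r).symm
  have z : ∀ i j, i ≠ j → alt3 c (S4.h i j e) (g1 S a) (g2 S b) = 0 := fun i j hij =>
    alt3_h hc spare_nat S4 x1 x2 (commute_g12 a b) hij e
  have y1 : ∀ i j, i ≠ j → Commute (S4.h i j e) (g1 S a) := fun i j hij => commute_h_of S4 x1 hij e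
  have y2 : ∀ i j, i ≠ j → Commute (S4.h i j e) (g2 S b) := fun i j hij => commute_h_of S4 x2 hij e
  let k : St R := g3 S e * S4.h 0 3 e * S4.h 1 4 e * S4.h 2 5 e
  have k1 : Commute k (g1 S a) := (((commute_g13 a e).symm.mul_left (y1 0 3 (by decide))).mul_left
    (y1 1 4 (by decide))).mul_left (y1 2 5 (by decide))
  have k2 : Commute k (g2 S b) := (((commute_g23 b e).symm.mul_left (y2 0 3 (by decide))).mul_left
    (y2 1 4 (by decide))).mul_left (y2 2 5 (by decide))
  have e1 : alt3 c k (g1 S a) (g2 S b) = alt3 c (g3 S e) (g1 S a) (g2 S b) := by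
    have p1 := (commute_g13 a e).symm
    have p2 := (commute_g23 b e).symm
    rw [alt3_mul hc ((p1.mul_left (y1 0 3 (by decide))).mul_left (y1 1 4 (by decide)))
      (y1 2 5 (by decide)) ((p2.mul_left (y2 0 3 (by decide))).mul_left (y2 1 4 (by decide)))
      (y2 2 5 (by decide)) (commute_g12 a b),
      alt3_mul hc (p1.mul_left (y1 0 3 (by decide))) (y1 1 4 (by decide))
      (p2.mul_left (y2 0 3 (by decide))) (y2 1 4 (by decide)) (commute_g12 a b),
      alt3_mul hc p1 (y1 0 3 (by decide)) p2 (y2 0 3 (by decide)) (commute_g12 a b),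
      z 0 3 (by decide), z 1 4 (by decide), z 2 5 (by decide)]
    simp [hS]
  have dk : S.Diag k (fun n => e ^ (lam3 n + StSys.e 4 7 n + StSys.e 5 8 n + StSys.e 6 9 n)) :=
    ((((diag_g3 e).mul (S.diag_h spare_nat (show (4 : ℕ) ≠ 7 by decide) e)).mul
      (S.diag_h spare_nat (show (5 : ℕ) ≠ 8 by decide) e)).mul
      (S.diag_h spare_nat (show (6 : ℕ) ≠ 9 by decide) e)).congr (fun n => by
        simp only [zpow_add])
  let SI := S.comap (![0, 3, 4, 5, 6] : Fin 5 → ℕ) (by decide)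
  let SJ := S.comap (![1, 2, 7, 8, 9] : Fin 5 → ℕ) (by decide)
  have kI : ∀ i j, i ≠ j → ∀ r, Commute (SI.x i j r) k := fun i j hij r =>
    (dk.commute_x ((show Function.Injective (![0, 3, 4, 5, 6] : Fin 5 → ℕ) by decide).ne hij) (by
      congr 1; revert i j; decide) r).symm
  have kJ : ∀ i j, i ≠ j → ∀ r, Commute (SJ.x i j r) k := fun i j hij r =>
    (dk.commute_x ((show Function.Injective (![1, 2, 7, 8, 9] : Fin 5 → ℕ) by decide).ne hij) (by
      congr 1; revert i j; decide) r).symm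
  have IJ : ∀ u i j, i ≠ j → ∀ r, Commute (SI.x i j r) (SJ.h 0 1 u) := fun u i j hij r =>
    ((S.diag_h spare_nat (show (1 : ℕ) ≠ 2 by decide) u).commute_x
      ((show Function.Injective (![0, 3, 4, 5, 6] : Fin 5 → ℕ) by decide).ne hij) (by
      congr 1; revert i j; decide) r).symm
  have JI : ∀ u i j, i ≠ j → ∀ r, Commute (SJ.x i j r) (SI.h 0 1 u) := fun u i j hij r =>
    ((S.diag_h spare_nat (show (0 : ℕ) ≠ 3 by decide) u).commute_x
      ((show Function.Injective (![1, 2, 7, 8, 9] : Fin 5 → ℕ) by decide).ne hij) (by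
      congr 1; revert i j; decide) r).symm
  have h01 : (0 : Fin 5) ≠ 1 := by decide
  have dI : ∀ u, S.Diag (SI.h 0 1 u) (fun n => u ^ StSys.e 0 3 n) := fun u =>
    S.diag_h spare_nat (show (0 : ℕ) ≠ 3 by decide) u
  have dJ : ∀ u, S.Diag (SJ.h 0 1 u) (fun n => u ^ StSys.e 1 2 n) := fun u =>
    S.diag_h spare_nat (show (1 : ℕ) ≠ 2 by decide) u
  have d1 := ((dI a).mul (dJ a)).congr (d' := fun n => a ^ lam1 n) (fun n => by
    rw [← zpow_add]; congr 1
    simp only [lam1, StSys.e]; split_ifs <;> omega)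
  have d2 := ((dI b).mul (dJ b).inv).congr (d' := fun n => b ^ lam2 n) (fun n => by
    rw [← zpow_sub]; congr 1
    simp only [lam2, StSys.e]; split_ifs <;> omega)
  have cII := SI.commute_h_h spare_fin5 h01 a b hab
  have cJJ := SJ.commute_h_h spare_fin5 h01 a b hab
  have cIJ : ∀ u v, Commute (SI.h 0 1 u) (SJ.h 0 1 v) := fun u v => commute_h_of SI (IJ v) h01 u
  have cIk : ∀ u, Commute (SI.h 0 1 u) k := fun u => commute_h_of SI kI h01 u
  have cJk : ∀ u, Commute (SJ.h 0 1 u) k := fun u => commute_h_of SJ kJ h01 u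
  rw [tau, ← alt3_cyc, ← alt3_cyc, ← e1, ← alt3_cyc,
    ← alt3_congr3 hc (diag_g1 a) d1 (diag_g2 b) d2 dk dk (commute_g12 a b) k1.symm k2.symm,
    alt3_mul hc (cII.mul_right (cIJ a b).inv_right) ((cIJ b a).symm.mul_right cJJ.inv_right)
      (cIk a) (cJk a) ((cIk b).mul_left (cJk b).inv_left),
    alt3_swap12 c _ (SI.h 0 1 a), alt3_swap12 c _ (SJ.h 0 1 a),
    alt3_mul hc cII.symm (cIJ a b).symm.inv_left (cIk b) (cJk b).inv_left (cIk a),
    alt3_mul hc (cIJ b a) cJJ.symm.inv_left (cIk b) (cJk b).inv_left (cJk a),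
    alt3_inv hc (cIJ a b).symm (cJk b) (cIk a), alt3_inv hc cJJ.symm (cJk b) (cJk a),
    alt3_steinberg hc spare_fin5 SI k kI h01 b a (by rw [add_comm, hab]),
    alt3_steinberg hc spare_fin5 SJ k kJ h01 b a (by rw [add_comm, hab]),
    alt3_h hc spare_fin5 SJ (JI a) kJ (cIk a) h01 b,
    alt3_h hc spare_fin5 SI (IJ a) kI (cJk a) h01 b]
  simp

theorem tau_mul3 (hc : IsCoc3 c) (a b e e' : Rˣ) :
    tau c a b (e * e') = tau c a b e + tau c a b e' := by
  rw [tau_swap23 hc, tau_swap12 hc, tau_mul1 hc, tau_swap23 hc a e b, tau_swap23 hc a e' b,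
    tau_swap12 hc e a b, tau_swap12 hc e' a b]
  abel

theorem tau_mul2 (hc : IsCoc3 c) (a b b' e : Rˣ) :
    tau c a (b * b') e = tau c a b e + tau c a b' e := by
  rw [tau_swap12 hc, tau_mul1 hc, tau_swap12 hc b a e, tau_swap12 hc b' a e]
  abel

theorem tau_st13 (hc : IsCoc3 c) (a b e : Rˣ) (h : (a : R) + e = 1) : tau c a b e = 0 := by
  rw [tau_swap23 hc, tau_steinberg hc _ _ _ h, neg_zero]

theorem tau_st23 (hc : IsCoc3 c) (a b e : Rˣ) (h : (b : R) + e = 1) : tau c a b e = 0 := by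
  rw [tau_swap12 hc, tau_st13 hc _ _ _ h, neg_zero]

/-- the vanishing of the symbol when `x, y` are invertible -/
theorem tau_vanish (hc : IsCoc3 c) (X Y V V₁ U P Q T S : Rˣ)
    (hU : (Y : R) * V₁ + U = 1) (hQ : (Y : R) + Q = 1) (hT : U * Q = T)
    (hT' : (X : R) * Y * V + T = 1) (hP : (X : R) * Y + P = 1) (hS : T * P = S ^ 5)
    (hS' : (X : R) ^ 5 + S = 1) : (2 : ℤ) • tau c V V₁ U = 0 := by
  have h1 := tau_st23 hc V (Y * V₁) U (by simpa using hU)
  rw [tau_mul2 hc] at h1
  have h2 := tau_mul3 hc V Y U Q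
  rw [hT, tau_st23 hc V Y Q hQ] at h2
  have h3 := tau_st13 hc (X * Y * V) Y T (by simpa using hT')
  rw [tau_mul1 hc] at h3
  have h4 := tau_mul3 hc (X * Y) Y T P
  rw [hS, tau_st13 hc (X * Y) Y P (by simpa using hP), tau_mul1 hc] at h4
  have h5 := tau_swap12 hc Y Y (S ^ 5)
  have h6 := tau_st13 hc (X ^ 5) Y S (by simpa using hS')
  have e5 : ∀ Z : Rˣ, Z ^ 5 = Z * Z * Z * Z * Z := fun Z => by
    simp only [pow_succ, pow_zero, one_mul]
  rw [e5 X] at h6
  simp only [tau_mul1 hc] at h6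
  have h7 : tau c X Y (S ^ 5) = 0 := by
    rw [e5 S]; simp only [tau_mul3 hc]; exact h6
  rw [h7] at h4
  rw [two_smul]
  linear_combination (norm := abel) h1 + h1 + h2 + h2 - h3 - h3 - h4 - h4 + h5

end Crest.Agent.R171
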